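import Mathlib

/-!
# P254, block S: the pointwise inequality behind the integrated Monge-Ampère identity

`p(m) = al + ga m + be m ^ 2`, `F' ^ 2 ≤ al / m ^ 2 + 2 ga / m + 3 be`.
-/

open Matrix Finset

noncomputable section

namespace Vale.Agent.P254.S130

/-- divided difference -/
def dd (F F' : ℝ → ℝ) (x y : ℝ) : ℝ := if x = y then F' x else (F x - F y) / (x - y)

lemma dd_comm (F F' : ℝ → ℝ) (x y : ℝ) : dd F F' x y = dd F F' y x := by
  unfold dd
  by_cases h : x = y
  · rw [if_pos h, if_pos h.symm, h]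
  · rw [if_neg h, if_neg (Ne.symm h), ← neg_sub (F y), ← neg_sub y, neg_div_neg_eq]

/-- `(F x - F y) ^ 2 ≤ (x - y) (G x - G y)` if `F' ^ 2 ≤ G'` -/
lemma sq_sub_le {F F' G G' : ℝ → ℝ} {y x : ℝ} (hyx : y < x)
    (hF : ∀ m ∈ Set.Icc y x, HasDerivAt F (F' m) m)
    (hG : ∀ m ∈ Set.Icc y x, HasDerivAt G (G' m) m)
    (h : ∀ m ∈ Set.Icc y x, F' m ^ 2 ≤ G' m) :
    (F x - F y) ^ 2 ≤ (x - y) * (G x - G y) := by
  have key : ∀ (σ s : ℝ), (σ = 1 ∨ σ = -1) → 0 < s →
      2 * (σ * (F x - F y)) ≤ s * (x - y) + (G x - G y) / s := by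
    intro σ s hσ hs
    set H : ℝ → ℝ := fun m => s * m + G m / s - 2 * (σ * F m) with hH
    have hd : ∀ m ∈ Set.Icc y x, HasDerivAt H (s * 1 + G' m / s - 2 * (σ * F' m)) m := by
      intro m hm
      exact (((hasDerivAt_id m).const_mul s).add ((hG m hm).div_const s)).sub
        (((hF m hm).const_mul σ).const_mul 2)
    have hmono : MonotoneOn H (Set.Icc y x) := by
      apply monotoneOn_of_deriv_nonneg (convex_Icc y x)
      · exact fun m hm => (hd m hm).continuousAt.continuousWithinAt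
      · intro m hm
        rw [interior_Icc] at hm
        exact (hd m (Set.Ioo_subset_Icc_self hm)).differentiableAt.differentiableWithinAt
      · intro m hm
        rw [interior_Icc] at hm
        have hm' := Set.Ioo_subset_Icc_self hm
        rw [(hd m hm').deriv]
        have h1 := h m hm'
        have h2 : 0 ≤ (s - σ * F' m) ^ 2 / s := by positivity
        have h3 : σ ^ 2 = 1 := by rcases hσ with h | h <;> rw [h] <;> norm_num
        have h4 : (s - σ * F' m) ^ 2 / s = s - 2 * (σ * F' m) + F' m ^ 2 / s := by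
          field_simp
          linear_combination F' m ^ 2 * h3
        have h5 : F' m ^ 2 / s ≤ G' m / s := by gcongr
        linarith
    have := hmono (Set.left_mem_Icc.2 hyx.le) (Set.right_mem_Icc.2 hyx.le) hyx.le
    simp only [hH] at this
    have h6 : (G x - G y) / s = G x / s - G y / s := sub_div _ _ _
    rw [h6]
    linarith
  have hG0 : 0 ≤ G x - G y := by
    have hmono : MonotoneOn G (Set.Icc y x) := by
      apply monotoneOn_of_deriv_nonneg (convex_Icc y x)
      · exact fun m hm => (hG m hm).continuousAt.continuousWithinAt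
      · intro m hm
        rw [interior_Icc] at hm
        exact (hG m (Set.Ioo_subset_Icc_self hm)).differentiableAt.differentiableWithinAt
      · intro m hm
        rw [interior_Icc] at hm
        have hm' := Set.Ioo_subset_Icc_self hm
        rw [(hG m hm').deriv]
        exact (sq_nonneg _).trans (h m hm')
    have := hmono (Set.left_mem_Icc.2 hyx.le) (Set.right_mem_Icc.2 hyx.le) hyx.le
    linarith
  have hxy : 0 < x - y := by linarith
  have habs : ∀ s : ℝ, 0 < s → 2 * |F x - F y| ≤ s * (x - y) + (G x - G y) / s := by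
    intro s hs
    rcases abs_choice (F x - F y) with h1 | h1 <;> rw [h1]
    · have := key 1 s (Or.inl rfl) hs
      rwa [one_mul] at this
    · have := key (-1) s (Or.inr rfl) hs
      rwa [neg_one_mul] at this
  rcases hG0.lt_or_eq with hpos | hzero
  · set s := Real.sqrt ((G x - G y) / (x - y)) with hs
    have hs0 : 0 < s := Real.sqrt_pos.2 (div_pos hpos hxy)
    have hs2 : s ^ 2 * (x - y) = G x - G y := by
      rw [hs, Real.sq_sqrt (div_pos hpos hxy).le]
      field_simp
    have h1 := habs s hs0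
    have h2 : (G x - G y) / s = s * (x - y) := by
      rw [div_eq_iff hs0.ne', ← hs2]; ring
    rw [h2] at h1
    have h3 : |F x - F y| ≤ s * (x - y) := by linarith
    calc (F x - F y) ^ 2 = |F x - F y| ^ 2 := (sq_abs _).symm
      _ ≤ (s * (x - y)) ^ 2 := by gcongr
      _ = (x - y) * (s ^ 2 * (x - y)) := by ring
      _ = _ := by rw [hs2]
  · have h0 : F x - F y = 0 := by
      by_contra hne
      have h1 := abs_pos.2 hne
      have h2 := habs (|F x - F y| / (x - y)) (div_pos h1 hxy)
      rw [← hzero, zero_div, add_zero, div_mul_cancel₀ _ hxy.ne'] at h2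
      linarith
    rw [h0, ← hzero]
    simp

/-- `log u ≤ (u - 1 / u) / 2` -/
lemma log_le_aux {x y : ℝ} (hy : 0 < y) (hyx : y < x) :
    2 * (Real.log x - Real.log y) ≤ (x - y) * (1 / x + 1 / y) := by
  have hx : 0 < x := hy.trans hyx
  set H : ℝ → ℝ := fun m => (m - y) * (1 / m + 1 / y) - 2 * (Real.log m - Real.log y) with hH
  have hd : ∀ m ∈ Set.Icc y x, HasDerivAt H ((1 / m + 1 / y) + (m - y) * (-(m ^ 2)⁻¹) - 2 * (m⁻¹)) m := by
    intro m hm
    have hm0 : 0 < m := hy.trans_le hm.1
    have h1 : HasDerivAt (fun m => m - y) 1 m := (hasDerivAt_id m).sub_const y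
    have h2 : HasDerivAt (fun m => 1 / m + 1 / y) (-(m ^ 2)⁻¹) m := by
      have := (hasDerivAt_inv hm0.ne').add_const (1 / y)
      simpa [one_div] using this
    have h3 := (h1.mul h2).sub (((Real.hasDerivAt_log hm0.ne').sub_const (Real.log y)).const_mul 2)
    refine h3.congr_deriv ?_
    ring
  have hmono : MonotoneOn H (Set.Icc y x) := by
    apply monotoneOn_of_deriv_nonneg (convex_Icc y x)
    · exact fun m hm => (hd m hm).continuousAt.continuousWithinAt
    · intro m hm
      rw [interior_Icc] at hm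
      exact (hd m (Set.Ioo_subset_Icc_self hm)).differentiableAt.differentiableWithinAt
    · intro m hm
      rw [interior_Icc] at hm
      have hm0 : 0 < m := hy.trans hm.1
      rw [(hd m (Set.Ioo_subset_Icc_self hm)).deriv]
      have : (1 / m + 1 / y) + (m - y) * (-(m ^ 2)⁻¹) - 2 * (m⁻¹) = (m - y) ^ 2 / (y * m ^ 2) := by
        field_simp
        ring
      rw [this]
      positivity
  have := hmono (Set.left_mem_Icc.2 hyx.le) (Set.right_mem_Icc.2 hyx.le) hyx.le
  simp only [hH, sub_self, zero_mul, mul_zero] at this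
  linarith

variable {al ga be : ℝ} {F F' : ℝ → ℝ}

/-- the divided difference is controlled by the weight -/
lemma dd_sq_le (_hal : 0 ≤ al) (hga : 0 ≤ ga) (_hbe : 0 ≤ be)
    (hF : ∀ m, 0 < m → HasDerivAt F (F' m) m)
    (hF' : ∀ m, 0 < m → F' m ^ 2 ≤ al / m ^ 2 + 2 * ga / m + 3 * be) {x y : ℝ} (hx : 0 < x)
    (hy : 0 < y) : dd F F' x y ^ 2 ≤ al / (x * y) + ga * (1 / x + 1 / y) + 3 * be := by
  rcases eq_or_ne x y with rfl | hne
  · unfold dd
    rw [if_pos rfl]
    refine (hF' x hx).trans (le_of_eq ?_)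
    field_simp
    ring
  · wlog hlt : y < x generalizing x y
    · have := this hy hx hne.symm (lt_of_le_of_ne (not_lt.1 hlt) hne)
      rw [dd_comm]
      refine this.trans (le_of_eq ?_)
      rw [mul_comm x y, add_comm (1 / x)]
    · have h1 := sq_sub_le (F := F) (F' := F')
        (G := fun m => -(al / m) + 2 * ga * Real.log m + 3 * be * m)
        (G' := fun m => al / m ^ 2 + 2 * ga / m + 3 * be) hlt
        (fun m hm => hF m (hy.trans_le hm.1)) (fun m hm => by
          have hm0 : 0 < m := hy.trans_le hm.1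
          have h2 : HasDerivAt (fun m : ℝ => -(al / m)) (al / m ^ 2) m := by
            have := ((hasDerivAt_inv hm0.ne').const_mul al).neg
            refine this.congr_deriv ?_
            field_simp
          have h3 := (Real.hasDerivAt_log hm0.ne').const_mul (2 * ga)
          have h4 := (hasDerivAt_id m).const_mul (3 * be)
          refine ((h2.add h3).add h4).congr_deriv ?_
          rw [div_eq_mul_inv (2 * ga)]
          ring) (fun m hm => hF' m (hy.trans_le hm.1))
      have h5 := log_le_aux hy hlt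
      have hxy : 0 < x - y := by linarith
      unfold dd
      rw [if_neg hne, div_pow, div_le_iff₀ (by positivity)]
      refine h1.trans ?_
      have h6 : ga * (2 * (Real.log x - Real.log y)) ≤ ga * ((x - y) * (1 / x + 1 / y)) :=
        mul_le_mul_of_nonneg_left h5 hga
      have h7 : -(al / x) - -(al / y) = al / (x * y) * (x - y) := by
        field_simp
        ring
      have h8 : -(al / x) + 2 * ga * Real.log x + 3 * be * x -
          (-(al / y) + 2 * ga * Real.log y + 3 * be * y) ≤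
          (al / (x * y) + ga * (1 / x + 1 / y) + 3 * be) * (x - y) := by
        calc _ = (-(al / x) - -(al / y)) + ga * (2 * (Real.log x - Real.log y)) +
              3 * be * (x - y) := by ring
          _ ≤ al / (x * y) * (x - y) + ga * ((x - y) * (1 / x + 1 / y)) + 3 * be * (x - y) := by
              rw [h7]; linarith
          _ = _ := by ring
      calc (x - y) * _ ≤ (x - y) * ((al / (x * y) + ga * (1 / x + 1 / y) + 3 * be) * (x - y)) :=
            mul_le_mul_of_nonneg_left h8 hxy.le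
        _ = _ := by ring

/-- the symmetrised weight inequality -/
lemma weight_le (hga : 0 ≤ ga) (hbe : 0 ≤ be) {x y z : ℝ} (hx : 0 < x) (hy : 0 < y) (hz : 0 < z) :
    (al / (x * y) + ga * (1 / x + 1 / y) + 3 * be) +
      (al / (y * z) + ga * (1 / y + 1 / z) + 3 * be) +
      (al / (z * x) + ga * (1 / z + 1 / x) + 3 * be) ≤
    ((al + ga * x + be * x ^ 2) / (y * z) + (ga + be * (x + y)) / z) +
      ((al + ga * y + be * y ^ 2) / (z * x) + (ga + be * (y + z)) / x) +
      ((al + ga * z + be * z ^ 2) / (x * y) + (ga + be * (z + x)) / y) := by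
  have hxyz : 0 < x * y * z := by positivity
  rw [← sub_nonneg]
  have : ((al + ga * x + be * x ^ 2) / (y * z) + (ga + be * (x + y)) / z) +
      ((al + ga * y + be * y ^ 2) / (z * x) + (ga + be * (y + z)) / x) +
      ((al + ga * z + be * z ^ 2) / (x * y) + (ga + be * (z + x)) / y) -
      ((al / (x * y) + ga * (1 / x + 1 / y) + 3 * be) +
      (al / (y * z) + ga * (1 / y + 1 / z) + 3 * be) +
      (al / (z * x) + ga * (1 / z + 1 / x) + 3 * be)) =
      (ga * (x ^ 2 + y ^ 2 + z ^ 2 - x * y - y * z - z * x) +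
        be * (x ^ 3 + y ^ 3 + z ^ 3 + x * y * (x + y) + y * z * (y + z) + z * x * (z + x)
          - 9 * (x * y * z))) / (x * y * z) := by
    field_simp
    ring
  rw [this]
  apply div_nonneg _ hxyz.le
  have h1 : 0 ≤ x ^ 2 + y ^ 2 + z ^ 2 - x * y - y * z - z * x := by
    nlinarith [sq_nonneg (x - y), sq_nonneg (y - z), sq_nonneg (z - x)]
  have h2 : 0 ≤ x ^ 3 + y ^ 3 + z ^ 3 + x * y * (x + y) + y * z * (y + z) + z * x * (z + x)
      - 9 * (x * y * z) := by
    nlinarith [mul_nonneg hx.le (sq_nonneg (y - z)), mul_nonneg hy.le (sq_nonneg (z - x)),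
      mul_nonneg hz.le (sq_nonneg (x - y)), mul_nonneg (add_pos (add_pos hx hy) hz).le
        (sq_nonneg (x - y)), mul_nonneg (add_pos (add_pos hx hy) hz).le (sq_nonneg (y - z)),
      mul_nonneg (add_pos (add_pos hx hy) hz).le (sq_nonneg (z - x))]
  exact add_nonneg (mul_nonneg hga h1) (mul_nonneg hbe h2)

variable {ι : Type*} [Fintype ι]

/-- rotation of the indices -/
lemma sum_rot (f : ι → ι → ι → ℝ) :
    ∑ i, ∑ j, ∑ k, f i j k = ∑ i, ∑ j, ∑ k, f j k i := by
  calc ∑ i, ∑ j, ∑ k, f i j k = ∑ j, ∑ i, ∑ k, f i j k := Finset.sum_comm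
    _ = ∑ j, ∑ k, ∑ i, f i j k := Finset.sum_congr rfl fun j _ => Finset.sum_comm
    _ = ∑ k, ∑ j, ∑ i, f i j k := Finset.sum_comm
    _ = ∑ k, ∑ i, ∑ j, f i j k := Finset.sum_congr rfl fun k _ => Finset.sum_comm

/-- **S-alg, diagonal form.** -/
theorem alg_diag (hal : 0 ≤ al) (hga : 0 ≤ ga) (hbe : 0 ≤ be)
    (hF : ∀ m, 0 < m → HasDerivAt F (F' m) m)
    (hF' : ∀ m, 0 < m → F' m ^ 2 ≤ al / m ^ 2 + 2 * ga / m + 3 * be) {m : ι → ℝ}
    (hm : ∀ i, 0 < m i) {Φ : ι → ι → ι → ℝ} (h1 : ∀ i j k, Φ i j k = Φ j i k)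
    (h2 : ∀ i j k, Φ i j k = Φ i k j) :
    ∑ i, ∑ j, ∑ k, Φ i j k ^ 2 * dd F F' (m i) (m j) ^ 2 ≤
      ∑ i, ∑ j, ∑ k, Φ i j k ^ 2 * ((al + ga * m i + be * m i ^ 2) / (m j * m k) +
        (ga + be * (m i + m j)) / m k) := by
  have hcyc : ∀ i j k, Φ j k i = Φ i j k := by
    intro i j k
    rw [h2 j k i, h1 j i k]
  have h3 : ∀ w : ι → ι → ι → ℝ, 3 * ∑ i, ∑ j, ∑ k, Φ i j k ^ 2 * w i j k =
      ∑ i, ∑ j, ∑ k, Φ i j k ^ 2 * (w i j k + w j k i + w k i j) := by
    intro w
    have e1 : ∑ i, ∑ j, ∑ k, Φ i j k ^ 2 * w i j k =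
        ∑ i, ∑ j, ∑ k, Φ i j k ^ 2 * w j k i := by
      rw [sum_rot]
      refine Finset.sum_congr rfl fun i _ => Finset.sum_congr rfl fun j _ =>
        Finset.sum_congr rfl fun k _ => ?_
      rw [hcyc]
    have e2 : ∑ i, ∑ j, ∑ k, Φ i j k ^ 2 * w j k i =
        ∑ i, ∑ j, ∑ k, Φ i j k ^ 2 * w k i j := by
      rw [sum_rot]
      refine Finset.sum_congr rfl fun i _ => Finset.sum_congr rfl fun j _ =>
        Finset.sum_congr rfl fun k _ => ?_
      rw [hcyc]
    have e3 : ∑ i, ∑ j, ∑ k, Φ i j k ^ 2 * (w i j k + w j k i + w k i j) =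
        ∑ i, ∑ j, ∑ k, Φ i j k ^ 2 * w i j k + ∑ i, ∑ j, ∑ k, Φ i j k ^ 2 * w j k i +
        ∑ i, ∑ j, ∑ k, Φ i j k ^ 2 * w k i j := by
      simp only [← Finset.sum_add_distrib]
      refine Finset.sum_congr rfl fun i _ => Finset.sum_congr rfl fun j _ =>
        Finset.sum_congr rfl fun k _ => ?_
      ring
    rw [e3, ← e2, ← e1]
    ring
  have key : 3 * ∑ i, ∑ j, ∑ k, Φ i j k ^ 2 * dd F F' (m i) (m j) ^ 2 ≤
      3 * ∑ i, ∑ j, ∑ k, Φ i j k ^ 2 * ((al + ga * m i + be * m i ^ 2) / (m j * m k) +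
        (ga + be * (m i + m j)) / m k) := by
    rw [h3 (fun i j k => dd F F' (m i) (m j) ^ 2),
      h3 (fun i j k => (al + ga * m i + be * m i ^ 2) / (m j * m k) +
        (ga + be * (m i + m j)) / m k)]
    refine Finset.sum_le_sum fun i _ => Finset.sum_le_sum fun j _ =>
      Finset.sum_le_sum fun k _ => mul_le_mul_of_nonneg_left ?_ (sq_nonneg _)
    refine le_trans ?_ (weight_le hga hbe (hm i) (hm j) (hm k))
    have a1 := dd_sq_le hal hga hbe hF hF' (hm i) (hm j)
    have a2 := dd_sq_le hal hga hbe hF hF' (hm j) (hm k)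
    have a3 := dd_sq_le hal hga hbe hF hF' (hm k) (hm i)
    linarith
  linarith

end Vale.Agent.P254.S130
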