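import Vale.Agent.P254.S.H130.Poly

/-!
# P254, block S: the pointwise inequality for a general spectral weight

`q` convex, `Y(x) = q(x)/x`. For a totally symmetric tensor `D`,
`∑ Y(M)_ij tr(M⁻¹ D_i M⁻¹ D_j) + ∑ (M⁻¹)_ab tr(D_a DY(M)[D_b]) ≥ ∑_a ∑_ij q[m_i,m_j]/(m_i m_j) (Uᵀ D_a U)_ij²`.
-/

open Matrix Finset

noncomputable section

namespace Vale.Agent.P254.S130

/-- divided differences of a function with monotone derivative are monotone -/
lemma dd_mono {q q' : ℝ → ℝ} (hq : ∀ x, 0 < x → HasDerivAt q (q' x) x)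
    (hq' : MonotoneOn q' (Set.Ioi 0)) {x z y : ℝ} (hx : 0 < x) (hz : 0 < z) (hy : 0 < y)
    (hxz : x ≤ z) : dd q q' x y ≤ dd q q' z y := by
  have hmvt : ∀ s t : ℝ, 0 < s → s < t → ∃ c ∈ Set.Ioo s t, q' c = (q t - q s) / (t - s) := by
    intro s t hs hst
    exact exists_hasDerivAt_eq_slope q q' hst
      (fun r hr => (hq r (hs.trans_le hr.1)).continuousAt.continuousWithinAt)
      (fun r hr => hq r (hs.trans hr.1))
  have hsl : ∀ s t : ℝ, dd q q' s t = if s = t then q' s else (q s - q t) / (s - t) := fun s t => rfl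
  -- values of divided differences against the derivative
  have hlo : ∀ s t : ℝ, 0 < s → s ≤ t → q' s ≤ dd q q' s t ∧ dd q q' s t ≤ q' t := by
    intro s t hs hst
    rcases hst.eq_or_lt with h | h
    · subst h
      rw [hsl, if_pos rfl]
      exact ⟨le_rfl, le_rfl⟩
    · obtain ⟨c, hc, hc'⟩ := hmvt s t hs h
      rw [hsl, if_neg h.ne, ← neg_sub (q t), ← neg_sub t, neg_div_neg_eq, ← hc']
      exact ⟨hq' hs (hs.trans hc.1) hc.1.le, hq' (hs.trans hc.1) (hs.trans h) hc.2.le⟩
  rcases le_total x y with hxy | hxy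
  · rcases le_total y z with hyz | hyz
    · rw [dd_comm q q' z y]
      exact (hlo x y hx hxy).2.trans (hlo y z hy hyz).1
    · -- x ≤ z ≤ y
      rcases hxz.eq_or_lt with h | h
      · rw [h]
      rcases hyz.eq_or_lt with h' | h'
      · subst h'
        have := (hlo x z hx hxy).2
        rwa [hsl z z, if_pos rfl]
      · obtain ⟨c, hc, hc'⟩ := hmvt x z hx h
        obtain ⟨d, hd, hd'⟩ := hmvt z y hz h'
        have hcd : q' c ≤ q' d := hq' (hx.trans hc.1) (hz.trans hd.1) (hc.2.le.trans hd.1.le)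
        have h1 : 0 < z - x := sub_pos.2 h
        have h2 : 0 < y - z := sub_pos.2 h'
        rw [hsl, hsl, if_neg (h.trans h').ne, if_neg h'.ne, ← neg_sub (q y) (q x),
          ← neg_sub y x, neg_div_neg_eq, ← neg_sub (q y) (q z), ← neg_sub y z, neg_div_neg_eq,
          ← hd', div_le_iff₀ (by linarith)]
        have e1 : q z - q x = q' c * (z - x) := by rw [hc']; field_simp
        have e2 : q y - q z = q' d * (y - z) := by rw [hd']; field_simp
        nlinarith
  · rcases le_total y z with hyz | hyz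
    · -- y ≤ x ≤ z
      rcases hxz.eq_or_lt with h | h
      · rw [h]
      rcases hxy.eq_or_lt with h' | h'
      · subst h'
        have := (hlo y z hy hyz).1
        rw [hsl y y, if_pos rfl, dd_comm q q' z y]
        exact this
      · obtain ⟨c, hc, hc'⟩ := hmvt x z hx h
        obtain ⟨d, hd, hd'⟩ := hmvt y x hy h'
        have hcd : q' d ≤ q' c := hq' (hy.trans hd.1) (hx.trans hc.1) (hd.2.le.trans hc.1.le)
        have h1 : 0 < z - x := sub_pos.2 h
        have h2 : 0 < x - y := sub_pos.2 h'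
        rw [hsl, hsl, if_neg h'.ne', if_neg (h'.trans h).ne', ← hd', le_div_iff₀ (by linarith)]
        have e1 : q z - q x = q' c * (z - x) := by rw [hc']; field_simp
        have e2 : q x - q y = q' d * (x - y) := by rw [hd']; field_simp
        nlinarith
    · have : x = y := le_antisymm (hxz.trans hyz) hxy
      have : z = y := le_antisymm hyz (by linarith)
      rw [this, show x = y from ‹x = y›]

/-- the symmetrised weight inequality for a convex function (`A = q[x,y]`, ...) -/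
lemma weight_gen {q q' : ℝ → ℝ} (hq : ∀ x, 0 < x → HasDerivAt q (q' x) x)
    (hq' : MonotoneOn q' (Set.Ioi 0)) {x y z : ℝ} (hx : 0 < x) (hy : 0 < y) (hz : 0 < z) :
    0 ≤ dd q q' x y * (x + y - 2 * z) + dd q q' y z * (y + z - 2 * x) +
      dd q q' z x * (z + x - 2 * y) := by
  have key : ∀ s t r : ℝ, 0 < s → 0 < t → 0 < r → 0 ≤ (s - t) * (dd q q' s r - dd q q' t r) := by
    intro s t r hs ht hr
    rcases le_total s t with h | h
    · exact mul_nonneg_of_nonpos_of_nonpos (by linarith)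
        (sub_nonpos.2 (dd_mono hq hq' hs ht hr h))
    · exact mul_nonneg (by linarith) (sub_nonneg.2 (dd_mono hq hq' ht hs hr h))
  have k1 := key x z y hx hz hy
  have k2 := key y z x hy hz hx
  have k3 := key y x z hy hx hz
  rw [dd_comm q q' z y] at k1
  rw [dd_comm q q' y x] at k2
  rw [dd_comm q q' x z] at k3
  linarith

/-- `Y(x) = q(x)/x` and its derivative: the divided difference of `Y` -/
lemma dd_div {q q' : ℝ → ℝ} {x y z : ℝ} (hx : 0 < x) (hy : 0 < y) (hz : 0 < z) :
    dd (fun t => q t / t) (fun t => (q' t * t - q t) / t ^ 2) x y / z =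
      ((x + y) * dd q q' x y - q x - q y) / (2 * (x * y * z)) := by
  unfold dd
  by_cases h : x = y
  · subst h
    rw [if_pos rfl, if_pos rfl]
    field_simp
    ring
  · have h0 : x - y ≠ 0 := sub_ne_zero.2 h
    rw [if_neg h, if_neg h]
    field_simp
    ring

variable {ι : Type*} [Fintype ι]

/-- symmetrisation over cyclic permutations -/
lemma sum_cyc {Φ : ι → ι → ι → ℝ} (h1 : ∀ i j k, Φ i j k = Φ j i k)
    (h2 : ∀ i j k, Φ i j k = Φ i k j) (w : ι → ι → ι → ℝ) :
    3 * ∑ i, ∑ j, ∑ k, Φ i j k ^ 2 * w i j k =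
      ∑ i, ∑ j, ∑ k, Φ i j k ^ 2 * (w i j k + w j k i + w k i j) := by
  have hcyc : ∀ i j k, Φ j k i = Φ i j k := by
    intro i j k
    rw [h2 j k i, h1 j i k]
  have e1 : ∑ i, ∑ j, ∑ k, Φ i j k ^ 2 * w i j k =
      ∑ i, ∑ j, ∑ k, Φ i j k ^ 2 * w j k i := by
    rw [sum_rot]
    refine Finset.sum_congr rfl fun i _ => Finset.sum_congr rfl fun j _ =>
      Finset.sum_congr rfl fun k _ => ?_
    rw [hcyc]
  have e2 : ∑ i, ∑ j, ∑ k, Φ i j k ^ 2 * w j k i =
      ∑ i, ∑ j, ∑ k, Φ i j k ^ 2 * w k i j := by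
    rw [sum_rot]
    refine Finset.sum_congr rfl fun i _ => Finset.sum_congr rfl fun j _ =>
      Finset.sum_congr rfl fun k _ => ?_
    rw [hcyc]
  have e3 : ∑ i, ∑ j, ∑ k, Φ i j k ^ 2 * (w i j k + w j k i + w k i j) =
      ∑ i, ∑ j, ∑ k, Φ i j k ^ 2 * w i j k + ∑ i, ∑ j, ∑ k, Φ i j k ^ 2 * w j k i +
      ∑ i, ∑ j, ∑ k, Φ i j k ^ 2 * w k i j := by
    simp only [← Finset.sum_add_distrib]
    refine Finset.sum_congr rfl fun i _ => Finset.sum_congr rfl fun j _ =>
      Finset.sum_congr rfl fun k _ => ?_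
    ring
  rw [e3, ← e2, ← e1]
  ring

/-- **general weight, diagonal form** -/
theorem alg_diag_gen {q q' : ℝ → ℝ} (hq : ∀ x, 0 < x → HasDerivAt q (q' x) x)
    (hq' : MonotoneOn q' (Set.Ioi 0)) {m : ι → ℝ} (hm : ∀ i, 0 < m i) {Φ : ι → ι → ι → ℝ}
    (h1 : ∀ i j k, Φ i j k = Φ j i k) (h2 : ∀ i j k, Φ i j k = Φ i k j) :
    ∑ k, ∑ i, ∑ j, Φ k i j ^ 2 * (dd q q' (m i) (m j) / (m i * m j)) ≤
      ∑ k, ∑ i, ∑ j, Φ k i j ^ 2 * (q (m k) / m k / (m i * m j) +
        dd (fun t => q t / t) (fun t => (q' t * t - q t) / t ^ 2) (m i) (m j) / m k) := by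
  have key : 3 * ∑ k, ∑ i, ∑ j, Φ k i j ^ 2 * (dd q q' (m i) (m j) / (m i * m j)) ≤
      3 * ∑ k, ∑ i, ∑ j, Φ k i j ^ 2 * (q (m k) / m k / (m i * m j) +
        dd (fun t => q t / t) (fun t => (q' t * t - q t) / t ^ 2) (m i) (m j) / m k) := by
    rw [sum_cyc h1 h2 (fun k i j => dd q q' (m i) (m j) / (m i * m j)),
      sum_cyc h1 h2 (fun k i j => q (m k) / m k / (m i * m j) +
        dd (fun t => q t / t) (fun t => (q' t * t - q t) / t ^ 2) (m i) (m j) / m k)]
    refine Finset.sum_le_sum fun k _ => Finset.sum_le_sum fun i _ =>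
      Finset.sum_le_sum fun j _ => mul_le_mul_of_nonneg_left ?_ (sq_nonneg _)
    have hx := hm k
    have hy := hm i
    have hz := hm j
    rw [dd_div hy hz hx, dd_div hz hx hy, dd_div hx hy hz]
    have hw := weight_gen hq hq' hx hy hz
    have hp : 0 < 2 * (m k * m i * m j) := by positivity
    rw [← sub_nonneg]
    have e : q (m k) / m k / (m i * m j) +
        ((m i + m j) * dd q q' (m i) (m j) - q (m i) - q (m j)) / (2 * (m i * m j * m k)) +
        (q (m i) / m i / (m j * m k) +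
        ((m j + m k) * dd q q' (m j) (m k) - q (m j) - q (m k)) / (2 * (m j * m k * m i))) +
        (q (m j) / m j / (m k * m i) +
        ((m k + m i) * dd q q' (m k) (m i) - q (m k) - q (m i)) / (2 * (m k * m i * m j))) -
        (dd q q' (m i) (m j) / (m i * m j) + dd q q' (m j) (m k) / (m j * m k) +
        dd q q' (m k) (m i) / (m k * m i)) =
        (dd q q' (m k) (m i) * (m k + m i - 2 * m j) + dd q q' (m i) (m j) * (m i + m j - 2 * m k) +
      dd q q' (m j) (m k) * (m j + m k - 2 * m i)) / (2 * (m k * m i * m j)) := by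
      field_simp
      ring
    rw [e]
    exact div_nonneg hw hp.le
  linarith

end Vale.Agent.P254.S130
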