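import Vale.Agent.P254.S.H130.AlgG

/-!
# P254, block S: the pointwise inequality for a general spectral weight, matrix form
-/

open Matrix Finset

noncomputable section

namespace Vale.Agent.P254.S130

variable {ι : Type*} [Fintype ι] [DecidableEq ι]

/-- the tensor in the eigenframe: `rot U D k i j = ∑ U_ak U_pi U_qj D_apq` -/
def rot (U : Matrix ι ι ℝ) (D : ι → Matrix ι ι ℝ) (k i j : ι) : ℝ :=
  (Uᵀ * (∑ a, U a k • D a) * U) i j

variable {U : Matrix ι ι ℝ} {D : ι → Matrix ι ι ℝ}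

omit [DecidableEq ι] in
lemma rot_eq (k i j : ι) : rot U D k i j = ∑ a, ∑ p, ∑ q, U a k * U p i * U q j * D a p q := by
  have e1 : ∀ p q, (∑ a, U a k • D a) p q = ∑ a, U a k * D a p q := by
    intro p q
    simp only [Matrix.sum_apply, Matrix.smul_apply, smul_eq_mul]
  have e2 : rot U D k i j = ∑ q, ∑ p, ∑ a, U a k * U p i * U q j * D a p q := by
    unfold rot
    rw [Matrix.mul_apply]
    refine Finset.sum_congr rfl fun q _ => ?_
    rw [Matrix.mul_apply, Finset.sum_mul]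
    refine Finset.sum_congr rfl fun p _ => ?_
    rw [Matrix.transpose_apply, e1, Finset.mul_sum, Finset.sum_mul]
    refine Finset.sum_congr rfl fun a _ => ?_
    ring
  rw [e2, Finset.sum_comm]
  calc ∑ p, ∑ q, ∑ a, U a k * U p i * U q j * D a p q
      = ∑ p, ∑ a, ∑ q, U a k * U p i * U q j * D a p q :=
        Finset.sum_congr rfl fun p _ => Finset.sum_comm
    _ = _ := Finset.sum_comm

omit [DecidableEq ι] in
lemma rot_symm1 (h1 : ∀ i j k, D i j k = D j i k) (k i j : ι) :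
    rot U D k i j = rot U D i k j := by
  rw [rot_eq, rot_eq, Finset.sum_comm]
  refine Finset.sum_congr rfl fun a _ => Finset.sum_congr rfl fun p _ =>
    Finset.sum_congr rfl fun q _ => ?_
  rw [h1 p a q]
  ring

omit [DecidableEq ι] in
lemma rot_symm2 (h2 : ∀ i j k, D i j k = D i k j) (k i j : ι) :
    rot U D k i j = rot U D k j i := by
  rw [rot_eq, rot_eq]
  refine Finset.sum_congr rfl fun a _ => ?_
  rw [Finset.sum_comm]
  refine Finset.sum_congr rfl fun p _ => Finset.sum_congr rfl fun q _ => ?_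
  rw [h2 a q p]
  ring

/-- the derivative index may be rotated -/
lemma sum_rot_eq (hU : Uᵀ * U = 1) (w : ι → ι → ℝ) :
    ∑ a, ∑ i, ∑ j, w i j * (Uᵀ * D a * U) i j ^ 2 =
      ∑ k, ∑ i, ∑ j, rot U D k i j ^ 2 * w i j := by
  have hU' : U * Uᵀ = 1 := mul_eq_one_comm.1 hU
  have e1 : ∀ i j, ∑ k, rot U D k i j ^ 2 = ∑ a, (Uᵀ * D a * U) i j ^ 2 := by
    intro i j
    rw [← sum_sq_orth hU' (fun a => (Uᵀ * D a * U) i j)]
    refine Finset.sum_congr rfl fun k _ => ?_
    congr 1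
    unfold rot
    rw [Matrix.mul_sum, Matrix.sum_mul, Matrix.sum_apply]
    refine Finset.sum_congr rfl fun a _ => ?_
    rw [Matrix.mul_smul, Matrix.smul_mul, Matrix.smul_apply, smul_eq_mul]
  calc ∑ a, ∑ i, ∑ j, w i j * (Uᵀ * D a * U) i j ^ 2
      = ∑ i, ∑ j, w i j * ∑ a, (Uᵀ * D a * U) i j ^ 2 := by
        rw [Finset.sum_comm]
        refine Finset.sum_congr rfl fun i _ => ?_
        rw [Finset.sum_comm]
        refine Finset.sum_congr rfl fun j _ => ?_
        rw [Finset.mul_sum]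
    _ = ∑ i, ∑ j, w i j * ∑ k, rot U D k i j ^ 2 := by simp only [e1]
    _ = _ := by
        rw [show ∑ k, ∑ i, ∑ j, rot U D k i j ^ 2 * w i j =
          ∑ i, ∑ k, ∑ j, rot U D k i j ^ 2 * w i j from Finset.sum_comm]
        refine Finset.sum_congr rfl fun i _ => ?_
        rw [Finset.sum_comm]
        refine Finset.sum_congr rfl fun j _ => ?_
        rw [Finset.mul_sum]
        refine Finset.sum_congr rfl fun k _ => ?_
        ring

/-- the first energy term in the eigenframe -/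
lemma energy1 {v m : ι → ℝ} (h2 : ∀ i j k, D i j k = D i k j) :
    ∑ i, ∑ j, (U * diagonal v * Uᵀ) i j *
        ((U * diagonal (fun k => (m k)⁻¹) * Uᵀ) * D i * (U * diagonal (fun k => (m k)⁻¹) * Uᵀ)
          * D j).trace =
      ∑ k, ∑ i, ∑ j, rot U D k i j ^ 2 * (v k / (m i * m j)) := by
  have hDs : ∀ a, (D a)ᵀ = D a := fun a => by
    ext i j
    exact h2 a j i
  have hEs : ∀ k, (∑ a, U a k • D a)ᵀ = ∑ a, U a k • D a := fun k => by
    simp only [transpose_sum, transpose_smul, hDs]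
  have e1 := quad_sum (trB (U * diagonal (fun k => (m k)⁻¹) * Uᵀ)
    (U * diagonal (fun k => (m k)⁻¹) * Uᵀ)) U v D
  simp only [trB_apply] at e1
  rw [e1]
  refine Finset.sum_congr rfl fun k _ => ?_
  rw [← trB_apply, trB_diag _ _ (hEs k), Finset.mul_sum]
  refine Finset.sum_congr rfl fun i _ => ?_
  rw [Finset.mul_sum]
  refine Finset.sum_congr rfl fun j _ => ?_
  change v k * ((m i)⁻¹ * (m j)⁻¹ * rot U D k i j ^ 2) = _
  rw [div_eq_mul_inv, mul_inv]
  ring

/-- the derivative of a spectral function with divided differences `w`: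
`X ↦ U (w ∘ (Uᵀ X U)) Uᵀ` -/
def schur (U : Matrix ι ι ℝ) (w : ι → ι → ℝ) (X : Matrix ι ι ℝ) : Matrix ι ι ℝ :=
  U * of (fun i j => w i j * (Uᵀ * X * U) i j) * Uᵀ

omit [DecidableEq ι] in
lemma schur_add (w : ι → ι → ℝ) (X Y : Matrix ι ι ℝ) :
    schur U w (X + Y) = schur U w X + schur U w Y := by
  unfold schur
  rw [← Matrix.add_mul, ← Matrix.mul_add]
  congr 2
  ext i j
  rw [Matrix.add_apply, of_apply, of_apply, of_apply, Matrix.mul_add, Matrix.add_mul,
    Matrix.add_apply]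
  ring

omit [DecidableEq ι] in
lemma schur_smul (w : ι → ι → ℝ) (c : ℝ) (X : Matrix ι ι ℝ) :
    schur U w (c • X) = c • schur U w X := by
  unfold schur
  rw [← Matrix.smul_mul, ← Matrix.mul_smul]
  congr 2
  ext i j
  rw [Matrix.smul_apply, of_apply, of_apply, Matrix.mul_smul, Matrix.smul_mul,
    Matrix.smul_apply, smul_eq_mul, smul_eq_mul]
  ring

lemma schur_frame (hU : Uᵀ * U = 1) (w : ι → ι → ℝ) (X : Matrix ι ι ℝ) :
    Uᵀ * schur U w X * U = of fun i j => w i j * (Uᵀ * X * U) i j := by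
  unfold schur
  calc Uᵀ * (U * of (fun i j => w i j * (Uᵀ * X * U) i j) * Uᵀ) * U
      = (Uᵀ * U) * of (fun i j => w i j * (Uᵀ * X * U) i j) * (Uᵀ * U) := by
        simp only [Matrix.mul_assoc]
    _ = _ := by rw [hU, Matrix.one_mul, Matrix.mul_one]

/-- the bilinear form `tr (X · schur Y)` -/
def schB (U : Matrix ι ι ℝ) (w : ι → ι → ℝ) : Matrix ι ι ℝ →ₗ[ℝ] Matrix ι ι ℝ →ₗ[ℝ] ℝ :=
  LinearMap.mk₂ ℝ (fun X Y => (X * schur U w Y).trace)
    (fun X Y Z => by simp only [add_mul, trace_add])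
    (fun c X Y => by rw [Matrix.smul_mul, trace_smul])
    (fun X Y Z => by rw [schur_add, mul_add, trace_add])
    (fun c X Y => by rw [schur_smul, Matrix.mul_smul, trace_smul])

lemma schB_apply (w : ι → ι → ℝ) (X Y : Matrix ι ι ℝ) :
    schB U w X Y = (X * schur U w Y).trace := rfl

lemma schB_self (hU : Uᵀ * U = 1) (w : ι → ι → ℝ) {X : Matrix ι ι ℝ} (hX : Xᵀ = X) :
    schB U w X X = ∑ i, ∑ j, w i j * (Uᵀ * X * U) i j ^ 2 := by
  have hU' : U * Uᵀ = 1 := mul_eq_one_comm.1 hU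
  have h1 : schB U w X X = ((Uᵀ * X * U) * (Uᵀ * schur U w X * U)).trace := by
    rw [schB_apply]
    calc (X * schur U w X).trace = (X * schur U w X * (U * Uᵀ)).trace := by rw [hU', Matrix.mul_one]
      _ = (Uᵀ * (X * schur U w X * U)).trace := by
          rw [← Matrix.mul_assoc, trace_mul_comm (X * schur U w X * U)]
      _ = ((Uᵀ * X * (U * Uᵀ) * schur U w X * U)).trace := by
          rw [hU', Matrix.mul_one]
          simp only [Matrix.mul_assoc]
      _ = _ := by simp only [Matrix.mul_assoc]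
  rw [h1, schur_frame hU, Matrix.trace, Finset.sum_comm]
  refine Finset.sum_congr rfl fun i _ => ?_
  rw [diag_apply, Matrix.mul_apply]
  refine Finset.sum_congr rfl fun j _ => ?_
  have hs : (Uᵀ * X * U) i j = (Uᵀ * X * U) j i := by
    have : (Uᵀ * X * U)ᵀ = Uᵀ * X * U := by
      rw [transpose_mul, transpose_mul, transpose_transpose, hX, Matrix.mul_assoc]
    exact congrFun (congrFun this j) i
  rw [of_apply, hs]
  ring

/-- the second energy term in the eigenframe -/
lemma energy2 (hU : Uᵀ * U = 1) {m : ι → ℝ} (w : ι → ι → ℝ)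
    (h2 : ∀ i j k, D i j k = D i k j) :
    ∑ a, ∑ b, (U * diagonal (fun k => (m k)⁻¹) * Uᵀ) a b * (D a * schur U w (D b)).trace =
      ∑ k, ∑ i, ∑ j, rot U D k i j ^ 2 * (w i j / m k) := by
  have hDs : ∀ a, (D a)ᵀ = D a := fun a => by
    ext i j
    exact h2 a j i
  have hEs : ∀ k, (∑ a, U a k • D a)ᵀ = ∑ a, U a k • D a := fun k => by
    simp only [transpose_sum, transpose_smul, hDs]
  have e1 := quad_sum (schB U w) U (fun k => (m k)⁻¹) D
  simp only [schB_apply] at e1
  rw [e1]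
  refine Finset.sum_congr rfl fun k _ => ?_
  rw [← schB_apply, schB_self hU w (hEs k), Finset.mul_sum]
  refine Finset.sum_congr rfl fun i _ => ?_
  rw [Finset.mul_sum]
  refine Finset.sum_congr rfl fun j _ => ?_
  change (m k)⁻¹ * (w i j * rot U D k i j ^ 2) = _
  rw [div_eq_mul_inv]
  ring

/-- **general weight, matrix form**, in terms of the rotated tensor -/
theorem alg_mat_gen {q q' : ℝ → ℝ} (hq : ∀ x, 0 < x → HasDerivAt q (q' x) x)
    (hq' : MonotoneOn q' (Set.Ioi 0)) {m : ι → ℝ} (hm : ∀ i, 0 < m i) (hU : Uᵀ * U = 1)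
    (h1 : ∀ i j k, D i j k = D j i k) (h2 : ∀ i j k, D i j k = D i k j) :
    ∑ a, ∑ i, ∑ j, dd q q' (m i) (m j) / (m i * m j) * (Uᵀ * D a * U) i j ^ 2 ≤
      ∑ i, ∑ j, (U * diagonal (fun k => q (m k) / m k) * Uᵀ) i j *
        ((U * diagonal (fun k => (m k)⁻¹) * Uᵀ) * D i * (U * diagonal (fun k => (m k)⁻¹) * Uᵀ)
          * D j).trace +
      ∑ a, ∑ b, (U * diagonal (fun k => (m k)⁻¹) * Uᵀ) a b * (D a * schur U
        (fun i j => dd (fun t => q t / t) (fun t => (q' t * t - q t) / t ^ 2) (m i) (m j))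
          (D b)).trace := by
  rw [energy1 h2, energy2 hU _ h2, sum_rot_eq hU (fun i j => dd q q' (m i) (m j) / (m i * m j))]
  refine (alg_diag_gen hq hq' hm (rot_symm1 h1) (rot_symm2 h2)).trans (le_of_eq ?_)
  simp only [mul_add, Finset.sum_add_distrib]

end Vale.Agent.P254.S130
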