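import Vale.Agent.P254.S.H130.Alg

/-!
# P254, block S: the pointwise inequality behind the integrated Monge-Ampère identity, matrix form
-/

open Matrix Finset

noncomputable section

namespace Vale.Agent.P254.S130

variable {ι : Type*} [Fintype ι] [DecidableEq ι]

/-- diagonalisation of a quadratic expression -/
lemma quad_sum {V : Type*} [AddCommGroup V] [Module ℝ V] (B : V →ₗ[ℝ] V →ₗ[ℝ] ℝ)
    (U : Matrix ι ι ℝ) (p : ι → ℝ) (D : ι → V) :
    ∑ i, ∑ j, (U * diagonal p * Uᵀ) i j * B (D i) (D j) =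
      ∑ k, p k * B (∑ i, U i k • D i) (∑ j, U j k • D j) := by
  have h1 : ∀ k, B (∑ i, U i k • D i) (∑ j, U j k • D j) =
      ∑ i, ∑ j, U i k * (U j k * B (D i) (D j)) := by
    intro k
    simp only [map_sum, map_smul, LinearMap.sum_apply, LinearMap.smul_apply, smul_eq_mul,
      Finset.mul_sum]
    rw [Finset.sum_comm]
    refine Finset.sum_congr rfl fun i _ => Finset.sum_congr rfl fun j _ => ?_
    ring
  have h2 : ∀ i j, (U * diagonal p * Uᵀ) i j = ∑ k, U i k * p k * U j k := by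
    intro i j
    rw [Matrix.mul_apply]
    refine Finset.sum_congr rfl fun k _ => ?_
    rw [Matrix.mul_diagonal, Matrix.transpose_apply]
  simp only [h1, h2, Finset.mul_sum, Finset.sum_mul]
  rw [show ∑ k, ∑ i, ∑ j, p k * (U i k * (U j k * B (D i) (D j))) =
      ∑ i, ∑ k, ∑ j, p k * (U i k * (U j k * B (D i) (D j))) from Finset.sum_comm]
  refine Finset.sum_congr rfl fun i _ => ?_
  rw [Finset.sum_comm]
  refine Finset.sum_congr rfl fun k _ => Finset.sum_congr rfl fun j _ => ?_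
  ring

/-- the bilinear form `tr (P X Q Y)` -/
def trB (P Q : Matrix ι ι ℝ) : Matrix ι ι ℝ →ₗ[ℝ] Matrix ι ι ℝ →ₗ[ℝ] ℝ :=
  LinearMap.mk₂ ℝ (fun X Y => (P * X * Q * Y).trace)
    (fun X Y Z => by simp only [mul_add, add_mul, trace_add])
    (fun c X Y => by rw [Matrix.mul_smul, Matrix.smul_mul, Matrix.smul_mul, trace_smul])
    (fun X Y Z => by simp only [mul_add, trace_add])
    (fun c X Y => by rw [Matrix.mul_smul, trace_smul])

lemma trB_apply (P Q X Y : Matrix ι ι ℝ) : trB P Q X Y = (P * X * Q * Y).trace := rfl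

/-- trace of `P E Q E` in an eigenbasis -/
lemma trB_diag {U : Matrix ι ι ℝ} (p q : ι → ℝ) {E : Matrix ι ι ℝ}
    (hE : Eᵀ = E) :
    trB (U * diagonal p * Uᵀ) (U * diagonal q * Uᵀ) E E =
      ∑ i, ∑ j, p i * q j * (Uᵀ * E * U) i j ^ 2 := by
  set Φ := Uᵀ * E * U with hΦ
  have hs : Φᵀ = Φ := by
    rw [hΦ, transpose_mul, transpose_mul, transpose_transpose, hE, Matrix.mul_assoc]
  rw [trB_apply]
  have h1 : U * diagonal p * Uᵀ * E * (U * diagonal q * Uᵀ) * E =
      U * (diagonal p * Φ * diagonal q * (Uᵀ * E)) := by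
    rw [hΦ]; simp only [Matrix.mul_assoc]
  have h2 : diagonal p * Φ * diagonal q * (Uᵀ * E) * U = diagonal p * Φ * diagonal q * Φ := by
    rw [hΦ]; simp only [Matrix.mul_assoc]
  rw [h1, trace_mul_comm, h2, trace]
  refine Finset.sum_congr rfl fun i _ => ?_
  rw [diag_apply, Matrix.mul_apply]
  refine Finset.sum_congr rfl fun j _ => ?_
  rw [mul_diagonal, diagonal_mul]
  have : Φ j i = Φ i j := congrFun (congrFun hs i) j
  rw [this]
  ring

/-- orthogonal invariance of a sum of squares -/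
lemma sum_sq_orth {U : Matrix ι ι ℝ} (hU : U * Uᵀ = 1) (x : ι → ℝ) :
    ∑ k, (∑ a, U a k * x a) ^ 2 = ∑ a, x a ^ 2 := by
  have h1 : ∀ a b, ∑ k, U a k * U b k = if a = b then 1 else 0 := by
    intro a b
    have := congrFun (congrFun hU a) b
    rw [Matrix.mul_apply, Matrix.one_apply] at this
    exact this
  calc ∑ k, (∑ a, U a k * x a) ^ 2 = ∑ k, ∑ a, ∑ b, (U a k * U b k) * (x a * x b) := by
        refine Finset.sum_congr rfl fun k _ => ?_
        rw [pow_two, Finset.sum_mul_sum]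
        refine Finset.sum_congr rfl fun a _ => Finset.sum_congr rfl fun b _ => ?_
        ring
    _ = ∑ a, ∑ b, (∑ k, U a k * U b k) * (x a * x b) := by
        rw [Finset.sum_comm]
        refine Finset.sum_congr rfl fun a _ => ?_
        rw [Finset.sum_comm]
        refine Finset.sum_congr rfl fun b _ => ?_
        rw [Finset.sum_mul]
    _ = ∑ a, x a ^ 2 := by
        refine Finset.sum_congr rfl fun a _ => ?_
        simp only [h1, ite_mul, one_mul, zero_mul, Finset.sum_ite_eq, Finset.mem_univ, if_true]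
        ring

variable {al ga be : ℝ} {F F' : ℝ → ℝ}

/-- **S-alg, matrix form.** `M = U diag(m) Uᵀ` positive definite, `D` a totally symmetric
3-tensor. -/
theorem alg_mat (hal : 0 ≤ al) (hga : 0 ≤ ga) (hbe : 0 ≤ be)
    (hF : ∀ m, 0 < m → HasDerivAt F (F' m) m)
    (hF' : ∀ m, 0 < m → F' m ^ 2 ≤ al / m ^ 2 + 2 * ga / m + 3 * be)
    {U M : Matrix ι ι ℝ} {m : ι → ℝ} (hm : ∀ i, 0 < m i) (hU : Uᵀ * U = 1)
    (hM : M = U * diagonal m * Uᵀ) {D : ι → Matrix ι ι ℝ} (h1 : ∀ i j k, D i j k = D j i k)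
    (h2 : ∀ i j k, D i j k = D i k j) :
    ∑ a, ∑ i, ∑ j, (dd F F' (m i) (m j) * (Uᵀ * D a * U) i j) ^ 2 ≤
      ∑ i, ∑ j, (al • (1 : Matrix ι ι ℝ) + ga • M + be • (M * M)) i j *
          (M⁻¹ * D i * M⁻¹ * D j).trace +
        ∑ a, ∑ b, M⁻¹ a b * (D a * (ga • D b + be • (D b * M + M * D b))).trace := by
  have hU' : U * Uᵀ = 1 := mul_eq_one_comm.1 hU
  -- the functions of `M`
  have hfun : ∀ p : ι → ℝ, ∀ q : ι → ℝ, U * diagonal p * Uᵀ * (U * diagonal q * Uᵀ) =
      U * diagonal (fun i => p i * q i) * Uᵀ := by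
    intro p q
    calc U * diagonal p * Uᵀ * (U * diagonal q * Uᵀ) =
          U * diagonal p * (Uᵀ * U) * diagonal q * Uᵀ := by simp only [Matrix.mul_assoc]
      _ = _ := by rw [hU, Matrix.mul_one, Matrix.mul_assoc U, diagonal_mul_diagonal]
  have hone : (1 : Matrix ι ι ℝ) = U * diagonal (fun _ => (1 : ℝ)) * Uᵀ := by
    rw [diagonal_one, Matrix.mul_one, hU']
  have hinv : M⁻¹ = U * diagonal (fun i => 1 / m i) * Uᵀ := by
    apply inv_eq_right_inv
    rw [hM, hfun, hone]
    congr 3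
    funext i
    exact mul_one_div_cancel (hm i).ne'
  have hp : al • (1 : Matrix ι ι ℝ) + ga • M + be • (M * M) =
      U * diagonal (fun i => al + ga * m i + be * m i ^ 2) * Uᵀ := by
    have e1 : al • (1 : Matrix ι ι ℝ) = U * diagonal (fun _ => al) * Uᵀ := by
      conv_lhs => rw [hone]
      rw [← Matrix.smul_mul, ← Matrix.mul_smul, ← diagonal_smul]
      congr 3
      funext i
      simp
    have e2 : ga • M = U * diagonal (fun i => ga * m i) * Uᵀ := by
      rw [hM, ← Matrix.smul_mul, ← Matrix.mul_smul, ← diagonal_smul]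
      rfl
    have e3 : be • (M * M) = U * diagonal (fun i => be * m i ^ 2) * Uᵀ := by
      rw [hM, hfun, ← Matrix.smul_mul, ← Matrix.mul_smul, ← diagonal_smul]
      congr 3
      funext i
      simp [pow_two]
    rw [e1, e2, e3, ← Matrix.add_mul, ← Matrix.mul_add, ← Matrix.add_mul, ← Matrix.mul_add,
      diagonal_add, diagonal_add]
  -- the rotated tensor
  set E : ι → Matrix ι ι ℝ := fun k => ∑ a, U a k • D a with hE
  have hDs : ∀ a, (D a)ᵀ = D a := fun a => by
    ext i j
    exact h2 a j i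
  have hEs : ∀ k, (E k)ᵀ = E k := fun k => by
    rw [hE]
    simp only [transpose_sum, transpose_smul, hDs]
  set Φ : ι → ι → ι → ℝ := fun k i j => (Uᵀ * E k * U) i j with hΦ
  have hΦe : ∀ k i j, Φ k i j = ∑ a, ∑ p, ∑ q, U a k * U p i * U q j * D a p q := by
    intro k i j
    have e1 : ∀ p q, E k p q = ∑ a, U a k * D a p q := by
      intro p q
      simp only [hE, Matrix.sum_apply, Matrix.smul_apply, smul_eq_mul]
    have e2 : Φ k i j = ∑ q, ∑ p, ∑ a, U a k * U p i * U q j * D a p q := by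
      change (Uᵀ * E k * U) i j = _
      rw [Matrix.mul_apply]
      refine Finset.sum_congr rfl fun q _ => ?_
      rw [Matrix.mul_apply, Finset.sum_mul]
      refine Finset.sum_congr rfl fun p _ => ?_
      rw [Matrix.transpose_apply, e1, Finset.mul_sum, Finset.sum_mul]
      refine Finset.sum_congr rfl fun a _ => ?_
      ring
    rw [e2, Finset.sum_comm]
    calc ∑ p, ∑ q, ∑ a, U a k * U p i * U q j * D a p q
        = ∑ p, ∑ a, ∑ q, U a k * U p i * U q j * D a p q :=
          Finset.sum_congr rfl fun p _ => Finset.sum_comm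
      _ = _ := Finset.sum_comm
  have hΦ1 : ∀ k i j, Φ k i j = Φ i k j := by
    intro k i j
    rw [hΦe, hΦe, Finset.sum_comm]
    refine Finset.sum_congr rfl fun a _ => Finset.sum_congr rfl fun p _ =>
      Finset.sum_congr rfl fun q _ => ?_
    rw [h1 p a q]
    ring
  have hΦ2 : ∀ k i j, Φ k i j = Φ k j i := by
    intro k i j
    rw [hΦe, hΦe]
    refine Finset.sum_congr rfl fun a _ => ?_
    rw [Finset.sum_comm]
    refine Finset.sum_congr rfl fun p _ =>
      Finset.sum_congr rfl fun q _ => ?_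
    rw [h2 a q p]
    ring
  -- the first sum
  have hT1 : ∑ i, ∑ j, (al • (1 : Matrix ι ι ℝ) + ga • M + be • (M * M)) i j *
      (M⁻¹ * D i * M⁻¹ * D j).trace =
      ∑ k, ∑ i, ∑ j, Φ k i j ^ 2 * ((al + ga * m k + be * m k ^ 2) / (m i * m j)) := by
    rw [hp]
    have e1 := quad_sum (trB M⁻¹ M⁻¹) U (fun i => al + ga * m i + be * m i ^ 2) D
    simp only [trB_apply] at e1
    rw [e1]
    refine Finset.sum_congr rfl fun k _ => ?_
    rw [← trB_apply, hinv, trB_diag _ _ (hEs k), Finset.mul_sum]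
    refine Finset.sum_congr rfl fun i _ => ?_
    rw [Finset.mul_sum]
    refine Finset.sum_congr rfl fun j _ => ?_
    change (al + ga * m k + be * m k ^ 2) * (1 / m i * (1 / m j) * Φ k i j ^ 2) = _
    have := (hm i).ne'
    have := (hm j).ne'
    field_simp
  -- the second sum
  have hT2 : ∑ a, ∑ b, M⁻¹ a b * (D a * (ga • D b + be • (D b * M + M * D b))).trace =
      ∑ k, ∑ i, ∑ j, Φ k i j ^ 2 * ((ga + be * (m i + m j)) / m k) := by
    set B : Matrix ι ι ℝ →ₗ[ℝ] Matrix ι ι ℝ →ₗ[ℝ] ℝ :=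
      ga • trB 1 1 + be • (trB M 1 + trB 1 M) with hB
    have e0 : ∀ X Y, B X Y = (X * (ga • Y + be • (Y * M + M * Y))).trace := by
      intro X Y
      simp only [hB, LinearMap.add_apply, LinearMap.smul_apply, trB_apply, smul_eq_mul,
        Matrix.one_mul, Matrix.mul_one, mul_add, Matrix.mul_smul, trace_add, trace_smul]
      rw [show M * X * Y = M * (X * Y) from Matrix.mul_assoc _ _ _, trace_mul_comm M (X * Y)]
      simp only [Matrix.mul_assoc]
    have e1 := quad_sum B U (fun i => 1 / m i) D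
    rw [← hinv] at e1
    simp only [e0] at e1
    rw [e1]
    refine Finset.sum_congr rfl fun k _ => ?_
    have e2 : B (E k) (E k) = ∑ i, ∑ j, (ga + be * (m i + m j)) * Φ k i j ^ 2 := by
      simp only [hB, LinearMap.add_apply, LinearMap.smul_apply, smul_eq_mul]
      have f1 : trB 1 1 (E k) (E k) = ∑ i, ∑ j, Φ k i j ^ 2 := by
        rw [hone, trB_diag _ _ (hEs k)]
        simp only [one_mul, hΦ]
      have f2 : trB M 1 (E k) (E k) = ∑ i, ∑ j, m i * Φ k i j ^ 2 := by
        rw [hone, hM, trB_diag _ _ (hEs k)]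
        simp only [mul_one, hΦ]
      have f3 : trB 1 M (E k) (E k) = ∑ i, ∑ j, m j * Φ k i j ^ 2 := by
        rw [hone, hM, trB_diag _ _ (hEs k)]
        simp only [one_mul, hΦ]
      rw [f1, f2, f3]
      simp only [Finset.mul_sum, ← Finset.sum_add_distrib]
      refine Finset.sum_congr rfl fun i _ => Finset.sum_congr rfl fun j _ => ?_
      ring
    rw [← e0, e2, Finset.mul_sum]
    refine Finset.sum_congr rfl fun i _ => ?_
    rw [Finset.mul_sum]
    refine Finset.sum_congr rfl fun j _ => ?_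
    have := (hm k).ne'
    field_simp
  -- the left hand side
  have hL : ∑ a, ∑ i, ∑ j, (dd F F' (m i) (m j) * (Uᵀ * D a * U) i j) ^ 2 =
      ∑ k, ∑ i, ∑ j, Φ k i j ^ 2 * dd F F' (m i) (m j) ^ 2 := by
    have e1 : ∀ i j, ∑ k, Φ k i j ^ 2 = ∑ a, (Uᵀ * D a * U) i j ^ 2 := by
      intro i j
      rw [← sum_sq_orth hU' (fun a => (Uᵀ * D a * U) i j)]
      refine Finset.sum_congr rfl fun k _ => ?_
      congr 1
      simp only [hΦ, hE]
      rw [Matrix.mul_sum, Matrix.sum_mul, Matrix.sum_apply]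
      refine Finset.sum_congr rfl fun a _ => ?_
      rw [Matrix.mul_smul, Matrix.smul_mul, Matrix.smul_apply, smul_eq_mul]
    calc ∑ a, ∑ i, ∑ j, (dd F F' (m i) (m j) * (Uᵀ * D a * U) i j) ^ 2
        = ∑ i, ∑ j, dd F F' (m i) (m j) ^ 2 * ∑ a, (Uᵀ * D a * U) i j ^ 2 := by
          rw [Finset.sum_comm]
          refine Finset.sum_congr rfl fun i _ => ?_
          rw [Finset.sum_comm]
          refine Finset.sum_congr rfl fun j _ => ?_
          rw [Finset.mul_sum]
          refine Finset.sum_congr rfl fun a _ => ?_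
          ring
      _ = ∑ i, ∑ j, dd F F' (m i) (m j) ^ 2 * ∑ k, Φ k i j ^ 2 := by simp only [e1]
      _ = _ := by
          rw [show ∑ k, ∑ i, ∑ j, Φ k i j ^ 2 * dd F F' (m i) (m j) ^ 2 =
            ∑ i, ∑ k, ∑ j, Φ k i j ^ 2 * dd F F' (m i) (m j) ^ 2 from Finset.sum_comm]
          refine Finset.sum_congr rfl fun i _ => ?_
          rw [Finset.sum_comm]
          refine Finset.sum_congr rfl fun j _ => ?_
          rw [Finset.mul_sum]
          refine Finset.sum_congr rfl fun k _ => ?_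
          ring
  rw [hT1, hT2, hL]
  have key := alg_diag hal hga hbe hF hF' hm hΦ1 hΦ2
  have hcyc : ∀ i j k, Φ j k i = Φ i j k := by
    intro i j k
    rw [hΦ2 j k i, hΦ1 j i k]
  have r0 : ∀ w : ι → ι → ι → ℝ, ∑ k, ∑ i, ∑ j, Φ k i j ^ 2 * w i j k =
      ∑ i, ∑ j, ∑ k, Φ i j k ^ 2 * w i j k := by
    intro w
    rw [sum_rot (fun k i j => Φ k i j ^ 2 * w i j k),
      sum_rot (fun i j k => Φ j k i ^ 2 * w k i j)]
    refine Finset.sum_congr rfl fun i _ => Finset.sum_congr rfl fun j _ =>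
      Finset.sum_congr rfl fun k _ => ?_
    rw [← hcyc k i j]
  have r1 := r0 (fun i j _ => dd F F' (m i) (m j) ^ 2)
  have r2 := r0 (fun i j k => (ga + be * (m i + m j)) / m k)
  rw [r1, r2]
  refine key.trans (le_of_eq ?_)
  simp only [mul_add, Finset.sum_add_distrib]

end Vale.Agent.P254.S130
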