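import Vale.Agent.P254.S.H130.Poly

/-!
# P254, block S: the matrix Poincaré inequality (abstract form)

From polynomials of a random symmetric matrix to functions of class `C¹`.
-/

open Matrix Finset Polynomial MeasureTheory Filter Topology

noncomputable section

namespace Vale.Agent.P254.S130

variable {ι : Type*} [Fintype ι] [DecidableEq ι]

/-- `F(M)` for `M = U diag(m) Uᵀ` -/
def fm (F : ℝ → ℝ) (U : Matrix ι ι ℝ) (m : ι → ℝ) : Matrix ι ι ℝ :=
  U * diagonal (fun i => F (m i)) * Uᵀ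

variable {Ω : Type*} [MeasurableSpace Ω] {μ : Measure Ω}

omit [DecidableEq ι] in
lemma mul_meas {A B : Ω → Matrix ι ι ℝ}
    (hA : ∀ i j, AEStronglyMeasurable (fun ω => A ω i j) μ)
    (hB : ∀ i j, AEStronglyMeasurable (fun ω => B ω i j) μ) (i j : ι) :
    AEStronglyMeasurable (fun ω => (A ω * B ω) i j) μ := by
  simp only [mul_apply]
  exact Finset.aestronglyMeasurable_fun_sum _ fun k _ => (hA i k).mul (hB k j)

lemma pow_meas {M : Ω → Matrix ι ι ℝ}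
    (hM : ∀ i j, AEStronglyMeasurable (fun ω => M ω i j) μ) (k : ℕ) (i j : ι) :
    AEStronglyMeasurable (fun ω => (M ω ^ k) i j) μ := by
  induction k generalizing i j with
  | zero => simp only [pow_zero]; exact aestronglyMeasurable_const
  | succ k ih =>
    simp only [pow_succ]
    exact mul_meas ih hM i j

lemma dpow_meas {M X : Ω → Matrix ι ι ℝ}
    (hM : ∀ i j, AEStronglyMeasurable (fun ω => M ω i j) μ)
    (hX : ∀ i j, AEStronglyMeasurable (fun ω => X ω i j) μ) (k : ℕ) (i j : ι) :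
    AEStronglyMeasurable (fun ω => dpow (M ω) (X ω) k i j) μ := by
  induction k generalizing i j with
  | zero => simp only [dpow, Matrix.zero_apply]; exact aestronglyMeasurable_const
  | succ k ih =>
    simp only [dpow, Matrix.add_apply]
    exact (mul_meas ih hM i j).add (mul_meas (pow_meas hM k) hX i j)

lemma Dp_meas {M X : Ω → Matrix ι ι ℝ}
    (hM : ∀ i j, AEStronglyMeasurable (fun ω => M ω i j) μ)
    (hX : ∀ i j, AEStronglyMeasurable (fun ω => X ω i j) μ) (p : ℝ[X]) (i j : ι) :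
    AEStronglyMeasurable (fun ω => Dp p (M ω) (X ω) i j) μ := by
  simp only [Dp, Polynomial.sum, Matrix.sum_apply, Matrix.smul_apply, smul_eq_mul]
  exact Finset.aestronglyMeasurable_fun_sum _ fun k _ => (dpow_meas hM hX k i j).const_mul _

lemma aeval_meas {M : Ω → Matrix ι ι ℝ}
    (hM : ∀ i j, AEStronglyMeasurable (fun ω => M ω i j) μ) (p : ℝ[X]) (i j : ι) :
    AEStronglyMeasurable (fun ω => (aeval (M ω) p : Matrix ι ι ℝ) i j) μ := by
  simp only [aeval_eq_sum_range, Matrix.sum_apply, Matrix.smul_apply, smul_eq_mul]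
  exact Finset.aestronglyMeasurable_fun_sum _ fun k _ => (pow_meas hM k i j).const_mul _

/-- the data of a random symmetric matrix with spectrum in `[c, C]` -/
structure Spec (c C : ℝ) (M U : Ω → Matrix ι ι ℝ) (m : Ω → ι → ℝ) : Prop where
  orth : ∀ ω, (U ω)ᵀ * U ω = 1
  eq : ∀ ω, M ω = U ω * diagonal (m ω) * (U ω)ᵀ
  mem : ∀ ω i, m ω i ∈ Set.Icc c C

variable {c C : ℝ} {M U : Ω → Matrix ι ι ℝ} {m : Ω → ι → ℝ} {F F' : ℝ → ℝ}

omit [MeasurableSpace Ω] in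
lemma Spec.bdd (h : Spec c C M U m) {B : ℝ} (hB : ∀ x ∈ Set.Icc c C, |F x| ≤ B) (hB0 : 0 ≤ B)
    (ω : Ω) (i j : ι) : |fm F (U ω) (m ω) i j| ≤ B :=
  conj_le (h.orth ω) (fun k => hB _ (h.mem ω k)) hB0 i j

omit [MeasurableSpace Ω] in
lemma Spec.aeval_eq (h : Spec c C M U m) (p : ℝ[X]) (ω : Ω) :
    aeval (M ω) p = fm (fun t => p.eval t) (U ω) (m ω) := aeval_diag (h.orth ω) (h.eq ω) p

omit [MeasurableSpace Ω] in
lemma Spec.close (h : Spec c C M U m) {G : ℝ → ℝ} {B : ℝ}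
    (hB : ∀ x ∈ Set.Icc c C, |G x - F x| ≤ B) (hB0 : 0 ≤ B)
    (ω : Ω) (i j : ι) : |fm G (U ω) (m ω) i j - fm F (U ω) (m ω) i j| ≤ B := by
  have h1 := Spec.bdd h (F := fun x => G x - F x) hB hB0 ω i j
  have e : fm (fun x => G x - F x) (U ω) (m ω) = fm G (U ω) (m ω) - fm F (U ω) (m ω) := by
    unfold fm
    rw [← Matrix.sub_mul, ← Matrix.mul_sub, diagonal_sub]
  rwa [e, Matrix.sub_apply] at h1

/-- a sequence of polynomials converging in `C¹` -/
lemma exists_seq (hcC : c ≤ C) (hF : ∀ x ∈ Set.Icc c C, HasDerivWithinAt F (F' x) (Set.Icc c C) x)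
    (hF' : ContinuousOn F' (Set.Icc c C)) :
    ∃ (p : ℕ → ℝ[X]) (ε : ℕ → ℝ), Tendsto ε atTop (𝓝 0) ∧ (∀ n, 0 ≤ ε n) ∧ (∀ n, ε n ≤ 1 + (C - c)) ∧
      (∀ n, ∀ x ∈ Set.Icc c C, |(p n).eval x - F x| ≤ ε n) ∧
      (∀ n, ∀ x ∈ Set.Icc c C, |(derivative (p n)).eval x - F' x| ≤ ε n) := by
  have hε : ∀ n : ℕ, (0 : ℝ) < 1 / ((n : ℝ) + 1) := fun n => by positivity
  choose p hp hp' using fun n : ℕ => exists_poly hcC hF hF' (hε n)
  have h0 : 0 ≤ C - c := sub_nonneg.2 hcC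
  refine ⟨p, fun n => 1 / ((n : ℝ) + 1) * (1 + (C - c)), ?_, fun n => by positivity, ?_, ?_, ?_⟩
  · have e0 : Tendsto (fun n : ℕ => (1 : ℝ) / ((n : ℝ) + 1)) atTop (𝓝 0) :=
      tendsto_one_div_add_atTop_nhds_zero_nat
    simpa using e0.mul_const (1 + (C - c))
  · intro n
    have h1 : 1 / ((n : ℝ) + 1) ≤ 1 := by
      rw [div_le_one (by positivity)]
      have : (0 : ℝ) ≤ n := Nat.cast_nonneg n
      linarith
    calc 1 / ((n : ℝ) + 1) * (1 + (C - c)) ≤ 1 * (1 + (C - c)) :=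
          mul_le_mul_of_nonneg_right h1 (by positivity)
      _ = _ := one_mul _
  · intro n x hx
    refine (hp n x hx).trans ?_
    refine mul_le_mul_of_nonneg_left ?_ (hε n).le
    linarith
  · intro n x hx
    refine (hp' n x hx).trans ?_
    have := (hε n).le
    nlinarith

lemma Spec.meas (hcC : c ≤ C) (h : Spec c C M U m)
    (hM : ∀ i j, AEStronglyMeasurable (fun ω => M ω i j) μ)
    (hF : ∀ x ∈ Set.Icc c C, HasDerivWithinAt F (F' x) (Set.Icc c C) x)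
    (hF' : ContinuousOn F' (Set.Icc c C)) (i j : ι) :
    AEStronglyMeasurable (fun ω => fm F (U ω) (m ω) i j) μ := by
  obtain ⟨p, ε, hε, hε0, -, hp, -⟩ := exists_seq hcC hF hF'
  refine aestronglyMeasurable_of_tendsto_ae atTop (f := fun n ω => (aeval (M ω) (p n) :
    Matrix ι ι ℝ) i j) (fun n => aeval_meas hM (p n) i j) (ae_of_all _ fun ω => ?_)
  rw [tendsto_iff_norm_sub_tendsto_zero]
  refine squeeze_zero (fun n => norm_nonneg _) (fun n => ?_) hε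
  rw [Real.norm_eq_abs, h.aeval_eq]
  exact h.close (hp n) (hε0 n) ω i j

/-- **Matrix Poincaré inequality**, abstract form: from polynomials to functions of class `C¹`. -/
theorem mat_poinc [IsProbabilityMeasure μ] {α : Type*} [Fintype α] (hcC : c ≤ C)
    (h : Spec c C M U m) (hM : ∀ i j, AEStronglyMeasurable (fun ω => M ω i j) μ)
    {D : α → Ω → Matrix ι ι ℝ} (hD : ∀ a i j, MemLp (fun ω => D a ω i j) 2 μ)
    (hP : ∀ p : ℝ[X], ∑ i, ∑ j, (∫ ω, ((aeval (M ω) p : Matrix ι ι ℝ) i j) ^ 2 ∂μ -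
        (∫ ω, (aeval (M ω) p : Matrix ι ι ℝ) i j ∂μ) ^ 2) ≤
      ∫ ω, ∑ a, ∑ i, ∑ j, (Dp p (M ω) (D a ω) i j) ^ 2 ∂μ)
    (hF : ∀ x ∈ Set.Icc c C, HasDerivWithinAt F (F' x) (Set.Icc c C) x)
    (hF' : ContinuousOn F' (Set.Icc c C)) :
    Integrable (fun ω => ∑ a, ∑ i, ∑ j,
      (dd F F' (m ω i) (m ω j) * ((U ω)ᵀ * D a ω * U ω) i j) ^ 2) μ ∧
    ∑ i, ∑ j, (∫ ω, (fm F (U ω) (m ω) i j) ^ 2 ∂μ - (∫ ω, fm F (U ω) (m ω) i j ∂μ) ^ 2) ≤
      ∫ ω, ∑ a, ∑ i, ∑ j,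
        (dd F F' (m ω i) (m ω j) * ((U ω)ᵀ * D a ω * U ω) i j) ^ 2 ∂μ := by
  obtain ⟨p, ε, hε, hε0, hε1, hp, hp'⟩ := exists_seq hcC hF hF'
  have hFc : ContinuousOn F (Set.Icc c C) := fun x hx => (hF x hx).continuousWithinAt
  obtain ⟨B₀, hB₀⟩ := isCompact_Icc.exists_bound_of_continuousOn hFc
  obtain ⟨B₁, hB₁⟩ := isCompact_Icc.exists_bound_of_continuousOn hF'
  simp only [Real.norm_eq_abs] at hB₀ hB₁
  have hB₀0 : 0 ≤ B₀ := (abs_nonneg _).trans (hB₀ c ⟨le_rfl, hcC⟩)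
  have hB₁0 : 0 ≤ B₁ := (abs_nonneg _).trans (hB₁ c ⟨le_rfl, hcC⟩)
  have hC0 : 0 ≤ C - c := sub_nonneg.2 hcC
  set B : ℝ := B₀ + (1 + (C - c)) with hB
  set B' : ℝ := B₁ + (1 + (C - c)) with hB'
  have hB0 : 0 ≤ B := by positivity
  have hB'0 : 0 ≤ B' := by positivity
  have hpB : ∀ n, ∀ x ∈ Set.Icc c C, |(p n).eval x| ≤ B := fun n x hx => by
    have h1 := hp n x hx
    have h2 := hB₀ x hx
    have h3 := hε1 n
    rw [abs_le] at h1 h2 ⊢
    constructor <;> linarith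
  have hpB' : ∀ n, ∀ x ∈ Set.Icc c C, |(derivative (p n)).eval x| ≤ B' := fun n x hx => by
    have h1 := hp' n x hx
    have h2 := hB₁ x hx
    have h3 := hε1 n
    rw [abs_le] at h1 h2 ⊢
    constructor <;> linarith
  have hpd : ∀ n, ∀ x ∈ Set.Icc c C, HasDerivWithinAt (fun t => (p n).eval t)
      ((derivative (p n)).eval x) (Set.Icc c C) x := fun n x _ => ((p n).hasDerivAt x).hasDerivWithinAt
  -- convergence of the functions
  have hlim : ∀ i j ω, Tendsto (fun n => (aeval (M ω) (p n) : Matrix ι ι ℝ) i j) atTop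
      (𝓝 (fm F (U ω) (m ω) i j)) := by
    intro i j ω
    rw [tendsto_iff_norm_sub_tendsto_zero]
    refine squeeze_zero (fun n => norm_nonneg _) (fun n => ?_) hε
    rw [Real.norm_eq_abs, h.aeval_eq]
    exact h.close (hp n) (hε0 n) ω i j
  have hbd : ∀ n i j ω, |(aeval (M ω) (p n) : Matrix ι ι ℝ) i j| ≤ B := by
    intro n i j ω
    rw [h.aeval_eq]
    exact h.bdd (hpB n) hB0 ω i j
  have hI1 : ∀ i j, Tendsto (fun n => ∫ ω, (aeval (M ω) (p n) : Matrix ι ι ℝ) i j ∂μ) atTop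
      (𝓝 (∫ ω, fm F (U ω) (m ω) i j ∂μ)) := by
    intro i j
    refine tendsto_integral_of_dominated_convergence (fun _ => B)
      (fun n => aeval_meas hM (p n) i j) (integrable_const _) (fun n => ae_of_all _ fun ω => ?_)
      (ae_of_all _ fun ω => hlim i j ω)
    exact hbd n i j ω
  have hI2 : ∀ i j, Tendsto (fun n => ∫ ω, ((aeval (M ω) (p n) : Matrix ι ι ℝ) i j) ^ 2 ∂μ) atTop
      (𝓝 (∫ ω, (fm F (U ω) (m ω) i j) ^ 2 ∂μ)) := by
    intro i j
    refine tendsto_integral_of_dominated_convergence (fun _ => B ^ 2)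
      (fun n => (aeval_meas hM (p n) i j).pow 2) (integrable_const _)
      (fun n => ae_of_all _ fun ω => ?_) (ae_of_all _ fun ω => (hlim i j ω).pow 2)
    rw [Real.norm_eq_abs, abs_pow]
    exact pow_le_pow_left₀ (abs_nonneg _) (hbd n i j ω) 2
  -- convergence of the right side
  have hDm : ∀ a i j, AEStronglyMeasurable (fun ω => D a ω i j) μ := fun a i j => (hD a i j).1
  have hS : Integrable (fun ω => B' ^ 2 * ∑ a, ∑ i, ∑ j, (D a ω i j) ^ 2) μ := by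
    refine Integrable.const_mul ?_ _
    exact integrable_finsetSum _ fun a _ => integrable_finsetSum _ fun i _ =>
      integrable_finsetSum _ fun j _ => (hD a i j).integrable_sq
  have hle : ∀ (G G' : ℝ → ℝ), (∀ x ∈ Set.Icc c C, HasDerivWithinAt G (G' x) (Set.Icc c C) x) →
      (∀ x ∈ Set.Icc c C, |G' x| ≤ B') → ∀ ω, ∑ a, ∑ i, ∑ j,
        (dd G G' (m ω i) (m ω j) * ((U ω)ᵀ * D a ω * U ω) i j) ^ 2 ≤
        B' ^ 2 * ∑ a, ∑ i, ∑ j, (D a ω i j) ^ 2 := by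
    intro G G' hG hG' ω
    rw [Finset.mul_sum]
    refine Finset.sum_le_sum fun a _ => ?_
    rw [← frob_orth (h.orth ω), Finset.mul_sum]
    refine Finset.sum_le_sum fun i _ => ?_
    rw [Finset.mul_sum]
    refine Finset.sum_le_sum fun j _ => ?_
    rw [mul_pow]
    refine mul_le_mul_of_nonneg_right ?_ (sq_nonneg _)
    have h1 := dd_bdd hG hG' (h.mem ω i) (h.mem ω j)
    calc dd G G' (m ω i) (m ω j) ^ 2 = |dd G G' (m ω i) (m ω j)| ^ 2 := (sq_abs _).symm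
      _ ≤ B' ^ 2 := pow_le_pow_left₀ (abs_nonneg _) h1 2
  have hRm : ∀ n, AEStronglyMeasurable (fun ω => ∑ a, ∑ i, ∑ j,
      (Dp (p n) (M ω) (D a ω) i j) ^ 2) μ := fun n =>
    Finset.aestronglyMeasurable_fun_sum _ fun a _ => Finset.aestronglyMeasurable_fun_sum _ fun i _ =>
      Finset.aestronglyMeasurable_fun_sum _ fun j _ => (Dp_meas hM (hDm a) (p n) i j).pow 2
  have hRl : ∀ ω, Tendsto (fun n => ∑ a, ∑ i, ∑ j, (Dp (p n) (M ω) (D a ω) i j) ^ 2) atTop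
      (𝓝 (∑ a, ∑ i, ∑ j, (dd F F' (m ω i) (m ω j) * ((U ω)ᵀ * D a ω * U ω) i j) ^ 2)) := by
    intro ω
    simp only [Dp_frob (h.orth ω) (h.eq ω)]
    refine tendsto_finsetSum _ fun a _ => tendsto_finsetSum _ fun i _ =>
      tendsto_finsetSum _ fun j _ => Tendsto.pow (Tendsto.mul_const _ ?_) 2
    rw [tendsto_iff_norm_sub_tendsto_zero]
    refine squeeze_zero (fun n => norm_nonneg _) (fun n => ?_) hε
    rw [Real.norm_eq_abs]
    exact dd_close hF (hpd n) (hp' n) (h.mem ω i) (h.mem ω j)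
  have hRb : ∀ n ω, ∑ a, ∑ i, ∑ j, (Dp (p n) (M ω) (D a ω) i j) ^ 2 ≤
      B' ^ 2 * ∑ a, ∑ i, ∑ j, (D a ω i j) ^ 2 := by
    intro n ω
    simp only [Dp_frob (h.orth ω) (h.eq ω)]
    exact hle _ _ (hpd n) (hpB' n) ω
  have hR0 : ∀ (f : α → ι → ι → ℝ), 0 ≤ ∑ a, ∑ i, ∑ j, (f a i j) ^ 2 := fun f =>
    Finset.sum_nonneg fun a _ => Finset.sum_nonneg fun i _ => Finset.sum_nonneg fun j _ =>
      sq_nonneg _
  have hI3 : Tendsto (fun n => ∫ ω, ∑ a, ∑ i, ∑ j, (Dp (p n) (M ω) (D a ω) i j) ^ 2 ∂μ) atTop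
      (𝓝 (∫ ω, ∑ a, ∑ i, ∑ j,
        (dd F F' (m ω i) (m ω j) * ((U ω)ᵀ * D a ω * U ω) i j) ^ 2 ∂μ)) := by
    refine tendsto_integral_of_dominated_convergence _ hRm hS
      (fun n => ae_of_all _ fun ω => ?_) (ae_of_all _ fun ω => hRl ω)
    rw [Real.norm_eq_abs]
    exact (abs_of_nonneg (hR0 fun a i j => Dp (p n) (M ω) (D a ω) i j)).le.trans (hRb n ω)
  refine ⟨?_, ?_⟩
  · refine Integrable.mono' hS (aestronglyMeasurable_of_tendsto_ae atTop hRm
      (ae_of_all _ fun ω => hRl ω)) (ae_of_all _ fun ω => ?_)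
    rw [Real.norm_eq_abs]
    refine (abs_of_nonneg (hR0 fun a i j =>
      dd F F' (m ω i) (m ω j) * ((U ω)ᵀ * D a ω * U ω) i j)).le.trans ?_
    refine hle F F' hF (fun x hx => (hB₁ x hx).trans ?_) ω
    rw [hB']
    linarith
  · refine le_of_tendsto_of_tendsto' (tendsto_finsetSum _ fun i _ => tendsto_finsetSum _
      fun j _ => (hI2 i j).sub ((hI1 i j).pow 2)) hI3 fun n => hP (p n)

end Vale.Agent.P254.S130
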