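import Vale.Agent.P254.S.Iface

/-!
P254, block S: the exact statement of the integrated Monge-Ampère identity (S-ID) that is used in
`StmtMatP` (helper130). `H = hess φ z`, `D a = ∂_a H`.
-/

namespace Vale.Agent.P254.S130

open Vale.Agent.P227.M Vale.Agent.P254.S

/-- entrywise partial derivative of the Hessian: `(D a z) i j = ∂_a ∂_i ∂_j φ (z)` -/
noncomputable def D3 {n : ℕ} (φ : E n → ℝ) (a : Fin n) (z : E n) : Matrix (Fin n) (Fin n) ℝ :=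
  fun i j => pd a (fun y => hess φ y i j) z

/-- **S-ID**, weight `p(m) = α + γ m + β m²`:
`E ∑ p(H)_ij tr(H⁻¹ D_i H⁻¹ D_j) + E ∑ (H⁻¹)_ab tr(D_a (γ D_b + β (D_b H + H D_b))) ≤ E tr p(H)` -/
def StmtID : Prop := ∀ (n : ℕ) (φ V : E n → ℝ) (c C a b M κ : ℝ), Reg V c C →
  BP φ V a b M κ → ∀ α γ β : ℝ, 0 ≤ α → 0 ≤ γ → 0 ≤ β →
  Ex Q (fun z =>
      ∑ i, ∑ j, (α • (1 : Matrix (Fin n) (Fin n) ℝ) + γ • hess φ z + β • (hess φ z * hess φ z)) i j *
          ((hess φ z)⁻¹ * D3 φ i z * (hess φ z)⁻¹ * D3 φ j z).trace +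
        ∑ a, ∑ b, (hess φ z)⁻¹ a b *
          (D3 φ a z * (γ • D3 φ b z + β • (D3 φ b z * hess φ z + hess φ z * D3 φ b z))).trace) ≤
    Ex Q (fun z =>
      (α • (1 : Matrix (Fin n) (Fin n) ℝ) + γ • hess φ z + β • (hess φ z * hess φ z)).trace)

end Vale.Agent.P254.S130
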