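import Vale.Agent.P254.S.H130.Gauss
import Vale.Agent.P254.S.H130.MatP
import Vale.Agent.P254.S.H130.StmtID

/-!
# P254, block S: `StmtPoi → StmtID → StmtMatP`
-/

open MeasureTheory Matrix Finset Polynomial

noncomputable section

namespace Vale.Agent.P254.S130

open Vale.Agent.P227.M Vale.Agent.P254.S

variable {n : ℕ}

/-- entrywise partial derivative of a matrix field -/
def DA (A : E n → Matrix (Fin n) (Fin n) ℝ) (a : Fin n) (z : E n) : Matrix (Fin n) (Fin n) ℝ :=
  fun i j => pd a (fun y => A y i j) z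

lemma abs_pd_le {f : E n → ℝ} {K : NNReal} (hf : LipschitzWith K f) (a : Fin n) (z : E n) :
    |pd a f z| ≤ K :=
  (abs_pd_le_norm f z a).trans (norm_fderiv_le_of_lipschitz ℝ hf)

lemma bm_pd {μ : Measure (E n)} {f : E n → ℝ} (hf : BL f) (a : Fin n) : BM μ (pd a f) := by
  obtain ⟨K, hK⟩ := hf.lipschitz
  exact ⟨(measurable_fderiv_apply_const ℝ f (ei a)).aestronglyMeasurable, K, abs_pd_le hK a⟩

lemma mbm_DA {μ : Measure (E n)} {A : E n → Matrix (Fin n) (Fin n) ℝ} (hA : MBL A) (a : Fin n) :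
    MBM μ (DA A a) := fun i j => bm_pd (hA i j) a

lemma ae_diff {A : E n → Matrix (Fin n) (Fin n) ℝ} (hA : MBL A) :
    ∀ᵐ z ∂(gQ n), ∀ i j, DifferentiableAt ℝ (fun y => A y i j) z := by
  have h1 : ∀ᵐ z : E n, ∀ i j, DifferentiableAt ℝ (fun y => A y i j) z := by
    rw [ae_all_iff]
    intro i
    rw [ae_all_iff]
    intro j
    obtain ⟨K, hK⟩ := (hA i j).lipschitz
    exact hK.ae_differentiableAt
  exact gQ_ac.ae_le h1

lemma mbm_dpow {μ : Measure (E n)} {A X : E n → Matrix (Fin n) (Fin n) ℝ} (hA : MBM μ A)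
    (hX : MBM μ X) (k : ℕ) : MBM μ fun z => dpow (A z) (X z) k := by
  have hp : ∀ k, MBM μ fun z => A z ^ k := by
    intro k
    induction k with
    | zero => simp only [pow_zero]; exact MBM.one
    | succ k ih => simp only [pow_succ]; exact ih.mul hA
  induction k with
  | zero => simp only [dpow]; exact fun i j => BM.const 0
  | succ k ih =>
    simp only [dpow]
    exact (ih.mul hA).add ((hp k).mul hX)

lemma mbm_Dp {μ : Measure (E n)} {A X : E n → Matrix (Fin n) (Fin n) ℝ} (hA : MBM μ A)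
    (hX : MBM μ X) (p : ℝ[X]) : MBM μ fun z => Dp p (A z) (X z) := fun i j => by
  simp only [Dp, Polynomial.sum, Matrix.sum_apply, Matrix.smul_apply, smul_eq_mul]
  exact BM.sum _ fun k _ => (BM.const _).mul (mbm_dpow hA hX k i j)

/-- the hypothesis of `mat_poinc` for the Gaussian measure -/
lemma hP_of (hPoi : StmtPoi) {A : E n → Matrix (Fin n) (Fin n) ℝ} (hA : MBL A) (p : ℝ[X]) :
    ∑ i, ∑ j, (∫ z, ((aeval (A z) p : Matrix (Fin n) (Fin n) ℝ) i j) ^ 2 ∂(gQ n) -
        (∫ z, (aeval (A z) p : Matrix (Fin n) (Fin n) ℝ) i j ∂(gQ n)) ^ 2) ≤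
      ∫ z, ∑ a, ∑ i, ∑ j, (Dp p (A z) (DA A a z) i j) ^ 2 ∂(gQ n) := by
  have := gQ_prob (n := n)
  have hbm : ∀ i j a, BM (gQ n) fun z => (Dp p (A z) (DA A a z) i j) ^ 2 := by
    intro i j a
    simp only [pow_two]
    have h := mbm_Dp (fun i j => (hA i j).bm) (mbm_DA (μ := gQ n) hA a) p i j
    exact h.mul h
  have h1 : ∀ i j, ∫ z, ((aeval (A z) p : Matrix (Fin n) (Fin n) ℝ) i j) ^ 2 ∂(gQ n) -
      (∫ z, (aeval (A z) p : Matrix (Fin n) (Fin n) ℝ) i j ∂(gQ n)) ^ 2 ≤
      ∑ a, ∫ z, (Dp p (A z) (DA A a z) i j) ^ 2 ∂(gQ n) := by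
    intro i j
    obtain ⟨K, hK⟩ := (hA.aeval p i j).lipschitz
    have h2 := hPoi n _ K hK
    rw [Ex_eq, Ex_eq, Ex_eq] at h2
    refine h2.trans (le_of_eq ?_)
    rw [← integral_finsetSum _ fun a _ => (hbm i j a).integrable]
    refine integral_congr_ae ?_
    filter_upwards [ae_diff hA] with z hz
    refine Finset.sum_congr rfl fun a _ => ?_
    congr 1
    obtain ⟨L', hL', hv⟩ := hasFD_aeval (fun i j => (hz i j).hasFDerivAt) p i j
    show fderiv ℝ _ z (ei a) = _
    rw [hL'.fderiv, hv]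
    rfl
  calc _ ≤ ∑ i, ∑ j, ∑ a, ∫ z, (Dp p (A z) (DA A a z) i j) ^ 2 ∂(gQ n) :=
        Finset.sum_le_sum fun i _ => Finset.sum_le_sum fun j _ => h1 i j
    _ = _ := by
        have h3 : ∀ z, ∑ a, ∑ i, ∑ j, (Dp p (A z) (DA A a z) i j) ^ 2 =
            ∑ i, ∑ j, ∑ a, (Dp p (A z) (DA A a z) i j) ^ 2 := by
          intro z
          rw [Finset.sum_comm]
          exact Finset.sum_congr rfl fun i _ => Finset.sum_comm
        simp only [h3]
        rw [integral_finsetSum _ fun i _ => integrable_finsetSum _ fun j _ =>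
          integrable_finsetSum _ fun a _ => (hbm i j a).integrable]
        refine Finset.sum_congr rfl fun i _ => ?_
        rw [integral_finsetSum _ fun j _ => integrable_finsetSum _ fun a _ =>
          (hbm i j a).integrable]
        refine Finset.sum_congr rfl fun j _ => ?_
        rw [integral_finsetSum _ fun a _ => (hbm i j a).integrable]

variable {φ V : E n → ℝ} {a b M κ : ℝ} {U : E n → Matrix (Fin n) (Fin n) ℝ} {m : E n → Fin n → ℝ}

lemma orth' (hS : S.Spec (hess φ) U m) (z : E n) : (U z)ᵀ * U z = 1 :=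
  mul_eq_one_comm.1 (hS.orth z)

/-- the eigenvalues lie in `[a, b]` -/
lemma eig_mem (h : BP φ V a b M κ) (hS : S.Spec (hess φ) U m) (z : E n) (k : Fin n) :
    m z k ∈ Set.Icc a b := by
  set v : E n := WithLp.toLp 2 (fun i => U z i k) with hv
  have hvi : ∀ i, v i = U z i k := fun i => rfl
  have h1 : ‖v‖ ^ 2 = 1 := by
    rw [norm_sq_eq_sum]
    have h := congrFun (congrFun (orth' hS z) k) k
    rw [Matrix.mul_apply, one_apply_eq] at h
    rw [← h]
    refine Finset.sum_congr rfl fun i _ => ?_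
    rw [hvi, transpose_apply]
    ring
  have h2 : qf (hess φ z) v = m z k := by
    have e : (U z)ᵀ * hess φ z * U z = diagonal (m z) := by
      rw [hS.dec z]
      calc (U z)ᵀ * (U z * diagonal (m z) * (U z)ᵀ) * U z
          = ((U z)ᵀ * U z) * diagonal (m z) * ((U z)ᵀ * U z) := by simp only [Matrix.mul_assoc]
        _ = _ := by rw [orth' hS z, Matrix.one_mul, Matrix.mul_one]
    have h := congrFun (congrFun e k) k
    rw [diagonal_apply_eq] at h
    rw [← h, Matrix.mul_apply]
    unfold qf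
    rw [Finset.sum_comm]
    refine Finset.sum_congr rfl fun j _ => ?_
    rw [Matrix.mul_apply, Finset.sum_mul]
    refine Finset.sum_congr rfl fun i _ => ?_
    rw [hvi, hvi, transpose_apply]
    ring
  have h3 := h.lower z v
  have h4 := h.upper z v
  rw [h1, h2, mul_one] at h3 h4
  exact ⟨h3, h4⟩

lemma spec_of (h : BP φ V a b M κ) (hS : S.Spec (hess φ) U m) :
    Spec a (max a b) (hess φ) U m where
  orth := orth' hS
  eq := hS.dec
  mem z k := ⟨(eig_mem h hS z k).1, (eig_mem h hS z k).2.trans (le_max_right _ _)⟩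

lemma mbl_hess (h : BP φ V a b M κ) (hS : S.Spec (hess φ) U m) : MBL (hess φ) := by
  intro i j
  refine ⟨⟨max a b, fun z => ?_⟩, M, h.lip i j⟩
  have h0 : 0 ≤ max a b := h.a_pos.le.trans (le_max_left _ _)
  show |hess φ z i j| ≤ max a b
  rw [hS.dec z]
  refine conj_le (orth' hS z) (fun k => ?_) h0 i j
  have h1 := (spec_of h hS).mem z k
  rw [abs_of_nonneg (h.a_pos.le.trans h1.1)]
  exact h1.2

lemma D3_eq : D3 φ = DA (hess φ) := rfl

lemma inv_eq (h : BP φ V a b M κ) (hS : S.Spec (hess φ) U m) (z : E n) :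
    (hess φ z)⁻¹ = fm (fun x => x⁻¹) (U z) (m z) := by
  apply inv_eq_right_inv
  unfold fm
  conv_lhs => rw [hS.dec z]
  calc U z * diagonal (m z) * (U z)ᵀ * (U z * diagonal (fun i => (m z i)⁻¹) * (U z)ᵀ)
      = U z * diagonal (m z) * ((U z)ᵀ * U z) * diagonal (fun i => (m z i)⁻¹) * (U z)ᵀ := by
        simp only [Matrix.mul_assoc]
    _ = 1 := by
        rw [orth' hS z, Matrix.mul_one, Matrix.mul_assoc (U z), diagonal_mul_diagonal]
        have e : (fun i => m z i * (m z i)⁻¹) = fun _ => (1 : ℝ) := by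
          funext i
          exact mul_inv_cancel₀ (h.a_pos.trans_le (eig_mem h hS z i).1).ne'
        rw [e, diagonal_one, Matrix.mul_one, hS.orth z]

lemma mbm_inv (h : BP φ V a b M κ) (hS : S.Spec (hess φ) U m) :
    MBM (gQ n) fun z => (hess φ z)⁻¹ := by
  intro i j
  simp only [inv_eq h hS]
  have hd : ∀ x ∈ Set.Icc a (max a b), HasDerivWithinAt (fun x : ℝ => x⁻¹) (-(x ^ 2)⁻¹)
      (Set.Icc a (max a b)) x := fun x hx =>
    (hasDerivAt_inv (h.a_pos.trans_le hx.1).ne').hasDerivWithinAt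
  have hc : ContinuousOn (fun x : ℝ => -(x ^ 2)⁻¹) (Set.Icc a (max a b)) := by
    refine ContinuousOn.neg (ContinuousOn.inv₀ (by fun_prop) fun x hx => ?_)
    exact pow_ne_zero 2 (h.a_pos.trans_le hx.1).ne'
  refine ⟨(spec_of h hS).meas (le_max_left _ _) (fun i j => ((mbl_hess h hS i j).bm (μ := gQ n)).1)
    hd hc i j, a⁻¹, fun z => ?_⟩
  refine (spec_of h hS).bdd (F := fun x => x⁻¹) (fun x hx => ?_) (inv_nonneg.2 h.a_pos.le) z i j
  rw [abs_of_pos (inv_pos.2 (h.a_pos.trans_le hx.1))]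
  exact inv_anti₀ h.a_pos hx.1

/-- **StmtMatP** from the scalar Poincaré inequality and the integrated Monge-Ampère identity. -/
theorem matP_of (hPoi : StmtPoi) (hID : StmtID) : StmtMatP := by
  intro n φ V c C a b M κ hV h U m hS α γ β hα hγ hβ F F' hF hF'c hF'
  have := gQ_prob (n := n)
  have hac : a ≤ max a b := le_max_left _ _
  have hmbl := mbl_hess h hS
  have hsp := spec_of h hS
  have hmeas : ∀ i j, AEStronglyMeasurable (fun z => hess φ z i j) (gQ n) := fun i j =>
    (hmbl i j).bm.1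
  have hFd : ∀ x ∈ Set.Icc a (max a b), HasDerivWithinAt F (F' x) (Set.Icc a (max a b)) x :=
    fun x hx => (hF x (h.a_pos.trans_le hx.1)).hasDerivWithinAt
  have hFc : ContinuousOn F' (Set.Icc a (max a b)) := hF'c.mono fun x hx => h.a_pos.trans_le hx.1
  -- the matrix Poincaré inequality
  obtain ⟨hint, hpoi⟩ := mat_poinc (μ := gQ n) (D := DA (hess φ)) hac hsp hmeas
    (fun a i j => by
      obtain ⟨hm, B, hB⟩ := mbm_DA (μ := gQ n) hmbl a i j
      exact MemLp.of_bound hm B (ae_of_all _ fun z => hB z))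
    (hP_of hPoi hmbl) hFd hFc
  -- left side
  have hfc : ∀ z, S.fc U m F z = fm F (U z) (m z) := fun z => rfl
  have hFB : ∃ B, 0 ≤ B ∧ ∀ x ∈ Set.Icc a (max a b), |F x| ≤ B := by
    have hFc' : ContinuousOn F (Set.Icc a (max a b)) := fun x hx => (hFd x hx).continuousWithinAt
    obtain ⟨B, hB⟩ := isCompact_Icc.exists_bound_of_continuousOn hFc'
    exact ⟨B, (norm_nonneg _).trans (hB a ⟨le_rfl, hac⟩), fun x hx => hB x hx⟩
  obtain ⟨B, hB0, hB⟩ := hFB
  have hbm : ∀ i j, BM (gQ n) fun z => fm F (U z) (m z) i j := fun i j =>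
    ⟨hsp.meas hac hmeas hFd hFc i j, B, fun z => hsp.bdd hB hB0 z i j⟩
  have hleft : Ex Q (fun z => ∑ k, F (m z k) ^ 2) -
      ∑ i, ∑ j, (Ex Q (fun z => S.fc U m F z i j)) ^ 2 =
      ∑ i, ∑ j, (∫ z, (fm F (U z) (m z) i j) ^ 2 ∂(gQ n) -
        (∫ z, fm F (U z) (m z) i j ∂(gQ n)) ^ 2) := by
    have e1 : ∀ z, ∑ k, F (m z k) ^ 2 = ∑ i, ∑ j, (fm F (U z) (m z) i j) ^ 2 := by
      intro z
      rw [← frob_orth (hsp.orth z)]
      have e2 : (U z)ᵀ * fm F (U z) (m z) * U z = diagonal (fun k => F (m z k)) := by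
        unfold fm
        calc (U z)ᵀ * (U z * diagonal (fun k => F (m z k)) * (U z)ᵀ) * U z
            = ((U z)ᵀ * U z) * diagonal (fun k => F (m z k)) * ((U z)ᵀ * U z) := by
              simp only [Matrix.mul_assoc]
          _ = _ := by rw [hsp.orth z, Matrix.one_mul, Matrix.mul_one]
      rw [e2]
      refine Finset.sum_congr rfl fun i _ => ?_
      rw [Finset.sum_eq_single i]
      · rw [diagonal_apply_eq]
      · intro j _ hj
        rw [diagonal_apply_ne _ hj.symm]
        ring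
      · intro hi
        exact absurd (Finset.mem_univ i) hi
    have hbm2 : ∀ i j, Integrable (fun z => (fm F (U z) (m z) i j) ^ 2) (gQ n) := fun i j => by
      simp only [pow_two]
      exact ((hbm i j).mul (hbm i j)).integrable
    simp only [Ex_eq, e1, hfc]
    rw [integral_finsetSum _ fun i _ => integrable_finsetSum _ fun j _ => hbm2 i j,
      ← Finset.sum_sub_distrib]
    refine Finset.sum_congr rfl fun i _ => ?_
    rw [integral_finsetSum _ fun j _ => hbm2 i j, ← Finset.sum_sub_distrib]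
  rw [hleft]
  refine hpoi.trans ?_
  -- the right side
  have hid := hID n φ V c C a b M κ hV h α γ β hα hγ hβ
  have hright : Ex Q (fun z => ∑ k, (α + γ * m z k + β * m z k ^ 2)) =
      Ex Q (fun z =>
      (α • (1 : Matrix (Fin n) (Fin n) ℝ) + γ • hess φ z + β • (hess φ z * hess φ z)).trace) := by
    congr 1
    funext z
    have e3 : α • (1 : Matrix (Fin n) (Fin n) ℝ) + γ • hess φ z + β • (hess φ z * hess φ z) =
        U z * diagonal (fun k => α + γ * m z k + β * m z k ^ 2) * (U z)ᵀ := by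
      have hU := orth' hS z
      have hU' := hS.orth z
      have e4 : hess φ z * hess φ z = U z * diagonal (fun k => m z k ^ 2) * (U z)ᵀ := by
        rw [← pow_two]
        exact pow_diag hU (hS.dec z) 2
      have e5 : (1 : Matrix (Fin n) (Fin n) ℝ) = U z * diagonal (fun _ => (1 : ℝ)) * (U z)ᵀ := by
        rw [diagonal_one, Matrix.mul_one, hU']
      have hs : ∀ (c : ℝ) (v : Fin n → ℝ), c • (U z * diagonal v * (U z)ᵀ) =
          U z * diagonal (fun i => c * v i) * (U z)ᵀ := by
        intro c v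
        rw [← Matrix.smul_mul, ← Matrix.mul_smul]
        congr 2
        ext i j
        by_cases hij : i = j
        · subst hij
          simp [diagonal_apply_eq]
        · simp [diagonal_apply_ne _ hij]
      have ha : ∀ v w : Fin n → ℝ, U z * diagonal v * (U z)ᵀ + U z * diagonal w * (U z)ᵀ =
          U z * diagonal (fun i => v i + w i) * (U z)ᵀ := by
        intro v w
        rw [← Matrix.add_mul, ← Matrix.mul_add, diagonal_add]
      rw [e4, e5]
      conv_lhs => rw [hS.dec z]
      rw [hs, hs, hs, ha, ha]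
      simp only [mul_one]
    rw [e3, Matrix.trace_mul_comm, ← Matrix.mul_assoc, orth' hS z, Matrix.one_mul,
      Matrix.trace_diagonal]
  rw [hright]
  refine le_trans ?_ hid
  rw [Ex_eq]
  refine integral_mono_ae hint ?_ ?_
  · -- integrability of the right side
    have hH : MBM (gQ n) (hess φ) := fun i j => (hmbl i j).bm
    have hI := mbm_inv h hS
    have hD := fun a => mbm_DA (μ := gQ n) hmbl a
    refine BM.integrable (BM.add ?_ ?_)
    · refine BM.sum _ fun i _ => BM.sum _ fun j _ => BM.mul ?_ ?_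
      · exact ((MBM.one.smul α).add (hH.smul γ)).add ((hH.mul hH).smul β) i j
      · exact (((hI.mul (hD i)).mul hI).mul (hD j)).trace
    · refine BM.sum _ fun a _ => BM.sum _ fun b _ => BM.mul (hI a b) ?_
      exact ((hD a).mul (((hD b).smul γ).add ((((hD b).mul hH).add (hH.mul (hD b))).smul β))).trace
  · filter_upwards [ae_diff hmbl] with z hz
    have hsymm : ∀ a i j, D3 φ a z i j = D3 φ a z j i := by
      intro a i j
      show pd a (fun y => hess φ y i j) z = pd a (fun y => hess φ y j i) z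
      congr 1
      funext y
      exact rad_hess_symm h.C2 y i j
    exact alg_mat hα hγ hβ hF hF' (fun i => h.a_pos.trans_le (eig_mem h hS z i).1)
      (orth' hS z) (hS.dec z) (D := fun a => D3 φ a z)
      (fun i j k => rad_third h.C2 hz i j k) hsymm

end Vale.Agent.P254.S130
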