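import Vale.Agent.P254.S.H130.AlgGM
import Vale.Agent.P254.S.H130.Main

/-!
# P254, block S: the energy inequality for a general spectral weight

`StmtIDp` (integrated Monge-Ampère identity for polynomials) `→ StmtEN`.
-/

open MeasureTheory Matrix Finset Polynomial Filter Topology

noncomputable section

namespace Vale.Agent.P254.S130

open Vale.Agent.P227.M Vale.Agent.P254.S

/-- **S-ID for polynomials**: `p ≥ 0` on the spectrum -/
def StmtIDp : Prop := ∀ (n : ℕ) (φ V : E n → ℝ) (c C a b M κ : ℝ), Reg V c C →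
  BP φ V a b M κ → ∀ p : ℝ[X], (∀ x ∈ Set.Icc a b, 0 ≤ p.eval x) →
  Ex Q (fun z =>
      ∑ i, ∑ j, (aeval (hess φ z) p : Matrix (Fin n) (Fin n) ℝ) i j *
          ((hess φ z)⁻¹ * D3 φ i z * (hess φ z)⁻¹ * D3 φ j z).trace +
        ∑ a, ∑ b, (hess φ z)⁻¹ a b * (D3 φ a z * Dp p (hess φ z) (D3 φ b z)).trace) ≤
    Ex Q (fun z => (aeval (hess φ z) p : Matrix (Fin n) (Fin n) ℝ).trace)

/-- **energy inequality**, `Y ≥ 0` of class `C¹` -/
def StmtEN1 : Prop := ∀ (n : ℕ) (φ V : E n → ℝ) (c C a b M κ : ℝ), Reg V c C →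
  BP φ V a b M κ → ∀ (U : E n → Matrix (Fin n) (Fin n) ℝ) (m : E n → Fin n → ℝ),
  S.Spec (hess φ) U m → ∀ Y Y' : ℝ → ℝ, (∀ x, 0 < x → HasDerivAt Y (Y' x) x) →
  ContinuousOn Y' (Set.Ioi 0) → (∀ x, 0 < x → 0 ≤ Y x) →
  Integrable (fun z => ∑ k, ∑ i, ∑ j, rot (U z) (fun a => D3 φ a z) k i j ^ 2 *
      (Y (m z k) / (m z i * m z j) + dd Y Y' (m z i) (m z j) / m z k)) (gQ n) ∧
    ∫ z, ∑ k, ∑ i, ∑ j, rot (U z) (fun a => D3 φ a z) k i j ^ 2 *
      (Y (m z k) / (m z i * m z j) + dd Y Y' (m z i) (m z j) / m z k) ∂(gQ n) ≤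
    ∫ z, ∑ k, Y (m z k) ∂(gQ n)

/-- **energy inequality**, `q ≥ 0` with monotone continuous derivative -/
def StmtEN : Prop := ∀ (n : ℕ) (φ V : E n → ℝ) (c C a b M κ : ℝ), Reg V c C →
  BP φ V a b M κ → ∀ (U : E n → Matrix (Fin n) (Fin n) ℝ) (m : E n → Fin n → ℝ),
  S.Spec (hess φ) U m → ∀ q q' : ℝ → ℝ, (∀ x, 0 < x → HasDerivAt q (q' x) x) →
  ContinuousOn q' (Set.Ioi 0) → MonotoneOn q' (Set.Ioi 0) → (∀ x, 0 < x → 0 ≤ q x) →
    Integrable (fun z => ∑ a, ∑ i, ∑ j, dd q q' (m z i) (m z j) / (m z i * m z j) *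
      ((U z)ᵀ * D3 φ a z * U z) i j ^ 2) (gQ n) ∧
    Ex Q (fun z => ∑ a, ∑ i, ∑ j, dd q q' (m z i) (m z j) / (m z i * m z j) *
      ((U z)ᵀ * D3 φ a z * U z) i j ^ 2) ≤
    Ex Q (fun z => ∑ k, q (m z k) / m z k)

variable {n : ℕ} {φ V : E n → ℝ} {a b M κ : ℝ} {U : E n → Matrix (Fin n) (Fin n) ℝ}
  {m : E n → Fin n → ℝ} {μ : Measure (E n)}

lemma schur_sq_le {ι : Type*} [Fintype ι] [DecidableEq ι] {U : Matrix ι ι ℝ} (hU : Uᵀ * U = 1)
    {w : ι → ι → ℝ} {B : ℝ} (hw : ∀ i j, |w i j| ≤ B) (X : Matrix ι ι ℝ) (i j : ι) :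
    schur U w X i j ^ 2 ≤ B ^ 2 * ∑ i, ∑ j, X i j ^ 2 := by
  have h1 : schur U w X i j ^ 2 ≤ ∑ i, ∑ j, schur U w X i j ^ 2 :=
    (Finset.single_le_sum (f := fun j => schur U w X i j ^ 2) (fun j _ => sq_nonneg _)
      (Finset.mem_univ j)).trans (Finset.single_le_sum
        (f := fun i => ∑ j, schur U w X i j ^ 2)
        (fun i _ => Finset.sum_nonneg fun j _ => sq_nonneg _) (Finset.mem_univ i))
  refine h1.trans ?_
  rw [← frob_orth hU (schur U w X), schur_frame hU, ← frob_orth hU X, Finset.mul_sum]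
  refine Finset.sum_le_sum fun i _ => ?_
  rw [Finset.mul_sum]
  refine Finset.sum_le_sum fun j _ => ?_
  rw [of_apply, mul_pow]
  refine mul_le_mul_of_nonneg_right ?_ (sq_nonneg _)
  calc w i j ^ 2 = |w i j| ^ 2 := (sq_abs _).symm
    _ ≤ B ^ 2 := pow_le_pow_left₀ (abs_nonneg _) (hw i j) 2

lemma Dp_eq_schur {ι : Type*} [Fintype ι] [DecidableEq ι] {U M : Matrix ι ι ℝ} {m : ι → ℝ}
    (hU : Uᵀ * U = 1) (hM : M = U * diagonal m * Uᵀ) (p : ℝ[X]) (X : Matrix ι ι ℝ) :
    Dp p M X = schur U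
      (fun i j => dd (fun t => p.eval t) (fun t => (derivative p).eval t) (m i) (m j)) X := by
  have hU' : U * Uᵀ = 1 := mul_eq_one_comm.1 hU
  have h1 : Uᵀ * Dp p M X * U = Uᵀ * schur U
      (fun i j => dd (fun t => p.eval t) (fun t => (derivative p).eval t) (m i) (m j)) X * U := by
    rw [schur_frame hU]
    ext i j
    rw [Dp_diag hU hM, of_apply]
  have h2 : ∀ Z : Matrix ι ι ℝ, U * (Uᵀ * Z * U) * Uᵀ = Z := by
    intro Z
    calc U * (Uᵀ * Z * U) * Uᵀ = (U * Uᵀ) * Z * (U * Uᵀ) := by simp only [Matrix.mul_assoc]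
      _ = Z := by rw [hU', Matrix.one_mul, Matrix.mul_one]
  rw [← h2 (Dp p M X), h1, h2]

lemma schur_tendsto {ι : Type*} [Fintype ι] [DecidableEq ι] {U : Matrix ι ι ℝ}
    {w : ℕ → ι → ι → ℝ} {w' : ι → ι → ℝ} (h : ∀ i j, Tendsto (fun n => w n i j) atTop (𝓝 (w' i j)))
    (X : Matrix ι ι ℝ) (i j : ι) :
    Tendsto (fun n => schur U (w n) X i j) atTop (𝓝 (schur U w' X i j)) := by
  simp only [schur, Matrix.mul_apply, of_apply]
  refine tendsto_finsetSum _ fun q _ => Tendsto.mul_const _ ?_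
  exact tendsto_finsetSum _ fun p _ => Tendsto.const_mul _ ((h p q).mul_const _)

/-- entries of `Dq(M)[X]` are bounded and measurable -/
lemma schur_mbm {c C : ℝ} {A : E n → Matrix (Fin n) (Fin n) ℝ} (hcC : c ≤ C)
    (hsp : Spec c C A U m) (hA : MBM μ A) {q q' : ℝ → ℝ}
    (hq : ∀ x ∈ Set.Icc c C, HasDerivWithinAt q (q' x) (Set.Icc c C) x)
    (hq' : ContinuousOn q' (Set.Icc c C)) {X : E n → Matrix (Fin n) (Fin n) ℝ} (hX : MBM μ X) :
    MBM μ fun z => schur (U z) (fun i j => dd q q' (m z i) (m z j)) (X z) := by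
  intro i j
  obtain ⟨p, ε, hε, hε0, -, hp, hp'⟩ := exists_seq hcC hq hq'
  obtain ⟨B, hB⟩ := isCompact_Icc.exists_bound_of_continuousOn hq'
  have hpd : ∀ n, ∀ x ∈ Set.Icc c C, HasDerivWithinAt (fun t => (p n).eval t)
      ((derivative (p n)).eval x) (Set.Icc c C) x := fun n x _ =>
    ((p n).hasDerivAt x).hasDerivWithinAt
  refine ⟨?_, ?_⟩
  · refine aestronglyMeasurable_of_tendsto_ae atTop (f := fun k z => Dp (p k) (A z) (X z) i j)
      (fun k => (mbm_Dp hA hX (p k) i j).1) (ae_of_all _ fun z => ?_)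
    simp only [fun k => Dp_eq_schur (hsp.orth z) (hsp.eq z) (p k) (X z)]
    refine schur_tendsto (fun i j => ?_) _ i j
    rw [tendsto_iff_norm_sub_tendsto_zero]
    refine squeeze_zero (fun n => norm_nonneg _) (fun n => ?_) hε
    rw [Real.norm_eq_abs]
    exact dd_close hq (hpd n) (hp' n) (hsp.mem z i) (hsp.mem z j)
  · have h1 : ∃ K, ∀ z, |∑ i, ∑ j, X z i j ^ 2| ≤ K := by
      have : BM μ fun z => ∑ i, ∑ j, X z i j ^ 2 := by
        simp only [pow_two]
        exact BM.sum _ fun i _ => BM.sum _ fun j _ => (hX i j).mul (hX i j)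
      exact this.2
    obtain ⟨K, hK⟩ := h1
    refine ⟨Real.sqrt (B ^ 2 * K), fun z => ?_⟩
    rw [← Real.sqrt_sq_eq_abs]
    refine Real.sqrt_le_sqrt ?_
    refine (schur_sq_le (hsp.orth z) (B := B) (fun i j => ?_) (X z) i j).trans ?_
    · exact dd_bdd hq (fun x hx => hB x hx) (hsp.mem z i) (hsp.mem z j)
    · exact mul_le_mul_of_nonneg_left ((le_abs_self _).trans (hK z)) (sq_nonneg _)

/-- entries of `F(M)` are bounded and measurable -/
lemma fm_mbm {c C : ℝ} {A : E n → Matrix (Fin n) (Fin n) ℝ} (hcC : c ≤ C)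
    (hsp : Spec c C A U m) (hA : MBM μ A) {q q' : ℝ → ℝ}
    (hq : ∀ x ∈ Set.Icc c C, HasDerivWithinAt q (q' x) (Set.Icc c C) x)
    (hq' : ContinuousOn q' (Set.Icc c C)) : MBM μ fun z => fm q (U z) (m z) := by
  intro i j
  have hFc : ContinuousOn q (Set.Icc c C) := fun x hx => (hq x hx).continuousWithinAt
  obtain ⟨B, hB⟩ := isCompact_Icc.exists_bound_of_continuousOn hFc
  exact ⟨hsp.meas hcC (fun i j => (hA i j).1) hq hq' i j, B, fun z =>
    hsp.bdd (fun x hx => hB x hx) ((norm_nonneg _).trans (hB c ⟨le_rfl, hcC⟩)) z i j⟩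

/-- the energy density -/
def en (U : Matrix (Fin n) (Fin n) ℝ) (m : Fin n → ℝ) (D : Fin n → Matrix (Fin n) (Fin n) ℝ)
    (Y Y' : ℝ → ℝ) : ℝ :=
  ∑ k, ∑ i, ∑ j, rot U D k i j ^ 2 * (Y (m k) / (m i * m j) + dd Y Y' (m i) (m j) / m k)

lemma en_eq {U : Matrix (Fin n) (Fin n) ℝ} {m : Fin n → ℝ}
    {D : Fin n → Matrix (Fin n) (Fin n) ℝ} (hU : Uᵀ * U = 1) (h2 : ∀ i j k, D i j k = D i k j)
    (Y Y' : ℝ → ℝ) :
    ∑ i, ∑ j, fm Y U m i j * (fm (fun x => x⁻¹) U m * D i * fm (fun x => x⁻¹) U m * D j).trace +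
      ∑ a, ∑ b, fm (fun x => x⁻¹) U m a b *
        (D a * schur U (fun i j => dd Y Y' (m i) (m j)) (D b)).trace = en U m D Y Y' := by
  have e1 := energy1 (U := U) (v := fun k => Y (m k)) (m := m) h2
  have e2 := energy2 (m := m) hU (fun i j => dd Y Y' (m i) (m j)) h2
  unfold fm en
  rw [e1, e2]
  simp only [mul_add, Finset.sum_add_distrib]

lemma rot_frob {U : Matrix (Fin n) (Fin n) ℝ} {D : Fin n → Matrix (Fin n) (Fin n) ℝ}
    (hU : Uᵀ * U = 1) : ∑ k, ∑ i, ∑ j, rot U D k i j ^ 2 = ∑ a, ∑ i, ∑ j, D a i j ^ 2 := by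
  have h1 := sum_rot_eq (D := D) hU (fun _ _ => (1 : ℝ))
  simp only [one_mul, mul_one] at h1
  rw [← h1]
  exact Finset.sum_congr rfl fun a _ => frob_orth hU (D a)

lemma en_le {U : Matrix (Fin n) (Fin n) ℝ} {m : Fin n → ℝ}
    {D : Fin n → Matrix (Fin n) (Fin n) ℝ} (hU : Uᵀ * U = 1) {a C B₁ B₂ : ℝ} (ha : 0 < a)
    (hm : ∀ i, m i ∈ Set.Icc a C) {Y Y' : ℝ → ℝ} (h1 : ∀ x ∈ Set.Icc a C, |Y x| ≤ B₁)
    (hd : ∀ x ∈ Set.Icc a C, HasDerivWithinAt Y (Y' x) (Set.Icc a C) x)
    (h2 : ∀ x ∈ Set.Icc a C, |Y' x| ≤ B₂) :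
    |en U m D Y Y'| ≤ (B₁ / (a * a) + B₂ / a) * ∑ a, ∑ i, ∑ j, D a i j ^ 2 := by
  unfold en
  rw [← rot_frob hU, Finset.mul_sum]
  refine (Finset.abs_sum_le_sum_abs _ _).trans (Finset.sum_le_sum fun k _ => ?_)
  rw [Finset.mul_sum]
  refine (Finset.abs_sum_le_sum_abs _ _).trans (Finset.sum_le_sum fun i _ => ?_)
  rw [Finset.mul_sum]
  refine (Finset.abs_sum_le_sum_abs _ _).trans (Finset.sum_le_sum fun j _ => ?_)
  rw [abs_mul, abs_of_nonneg (sq_nonneg _), mul_comm]
  refine mul_le_mul_of_nonneg_right ?_ (sq_nonneg _)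
  have hk := ha.trans_le (hm k).1
  have hi := ha.trans_le (hm i).1
  have hj := ha.trans_le (hm j).1
  have b1 := h1 _ (hm k)
  have b2 := dd_bdd hd h2 (hm i) (hm j)
  refine (abs_add_le _ _).trans (add_le_add ?_ ?_)
  · rw [abs_div, abs_of_pos (mul_pos hi hj)]
    exact div_le_div₀ ((abs_nonneg _).trans b1) b1 (mul_pos ha ha)
      (mul_le_mul (hm i).1 (hm j).1 ha.le hi.le)
  · rw [abs_div, abs_of_pos hk]
    exact div_le_div₀ ((abs_nonneg _).trans b2) b2 ha (hm k).1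

lemma D3_symm2 (h : ContDiff ℝ 2 φ) (z : E n) (i j k : Fin n) :
    D3 φ i z j k = D3 φ i z k j := by
  show pd i (fun y => hess φ y j k) z = pd i (fun y => hess φ y k j) z
  congr 1
  funext y
  exact rad_hess_symm h y j k

lemma trace_fm {U : Matrix (Fin n) (Fin n) ℝ} {m : Fin n → ℝ} (hU : Uᵀ * U = 1) (F : ℝ → ℝ) :
    (fm F U m).trace = ∑ k, F (m k) := by
  unfold fm
  rw [Matrix.trace_mul_comm, ← Matrix.mul_assoc, hU, Matrix.one_mul, Matrix.trace_diagonal]

/-- the integrand of the polynomial identity is bounded and measurable -/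
lemma bm_poly (h : BP φ V a b M κ) (hS : S.Spec (hess φ) U m) (p : ℝ[X]) :
    BM (gQ n) fun z => en (U z) (m z) (fun a => D3 φ a z) (fun t => p.eval t)
      (fun t => (derivative p).eval t) := by
  have hmbl := mbl_hess h hS
  have hH : MBM (gQ n) (hess φ) := fun i j => (hmbl i j).bm
  have hI := mbm_inv h hS
  have hD := fun a => mbm_DA (μ := gQ n) hmbl a
  have hsp := spec_of h hS
  have e : ∀ z, en (U z) (m z) (fun a => D3 φ a z) (fun t => p.eval t)
      (fun t => (derivative p).eval t) =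
      ∑ i, ∑ j, (aeval (hess φ z) p : Matrix (Fin n) (Fin n) ℝ) i j *
          ((hess φ z)⁻¹ * D3 φ i z * (hess φ z)⁻¹ * D3 φ j z).trace +
        ∑ a, ∑ b, (hess φ z)⁻¹ a b * (D3 φ a z * Dp p (hess φ z) (D3 φ b z)).trace := by
    intro z
    rw [← en_eq (hsp.orth z) (fun i j k => D3_symm2 h.C2 z i j k), ← inv_eq h hS z,
      ← hsp.aeval_eq p z]
    simp only [Dp_eq_schur (hsp.orth z) (hsp.eq z) p]
  simp only [e]
  refine BM.add ?_ ?_
  · refine BM.sum _ fun i _ => BM.sum _ fun j _ => BM.mul ?_ ?_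
    · simp only [aeval_eq_sum_range, Matrix.sum_apply, Matrix.smul_apply, smul_eq_mul]
      exact BM.sum _ fun k _ => (BM.const _).mul ((hmbl.pow k i j).bm)
    · exact (((hI.mul (hD i)).mul hI).mul (hD j)).trace
  · refine BM.sum _ fun a _ => BM.sum _ fun b _ => BM.mul (hI a b) ?_
    exact ((hD a).mul (mbm_Dp hH (hD b) p)).trace

/-- **energy inequality for `C¹` weights** -/
theorem en1_of (hID : StmtIDp) : StmtEN1 := by
  intro n φ V c C a b M κ hV h U m hS Y Y' hY hY'c hY0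
  have := gQ_prob (n := n)
  have hac : a ≤ max a b := le_max_left _ _
  have hmbl := mbl_hess h hS
  have hsp := spec_of h hS
  have hH : MBM (gQ n) (hess φ) := fun i j => (hmbl i j).bm
  have hD := fun a => mbm_DA (μ := gQ n) hmbl a
  have hYd : ∀ x ∈ Set.Icc a (max a b), HasDerivWithinAt Y (Y' x) (Set.Icc a (max a b)) x :=
    fun x hx => (hY x (h.a_pos.trans_le hx.1)).hasDerivWithinAt
  have hYc : ContinuousOn Y' (Set.Icc a (max a b)) := hY'c.mono fun x hx => h.a_pos.trans_le hx.1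
  obtain ⟨p, ε, hε, hε0, hε1, hp, hp'⟩ := exists_seq hac hYd hYc
  set P : ℕ → ℝ[X] := fun k => p k + Polynomial.C (ε k) with hP
  have hPe : ∀ k x, (P k).eval x = (p k).eval x + ε k := fun k x => by
    rw [hP]
    simp
  have hPd : ∀ k, derivative (P k) = derivative (p k) := fun k => by
    rw [hP]
    simp
  have hP0 : ∀ k, ∀ x ∈ Set.Icc a b, 0 ≤ (P k).eval x := by
    intro k x hx
    have hx' : x ∈ Set.Icc a (max a b) := ⟨hx.1, hx.2.trans (le_max_right _ _)⟩
    have h1 := hp k x hx'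
    have h2 := hY0 x (h.a_pos.trans_le hx.1)
    rw [abs_le] at h1
    rw [hPe]
    linarith [h1.1]
  -- bounds
  have hYcc : ContinuousOn Y (Set.Icc a (max a b)) := fun x hx => (hYd x hx).continuousWithinAt
  obtain ⟨B₀, hB₀⟩ := isCompact_Icc.exists_bound_of_continuousOn hYcc
  obtain ⟨B₁, hB₁⟩ := isCompact_Icc.exists_bound_of_continuousOn hYc
  simp only [Real.norm_eq_abs] at hB₀ hB₁
  set L : ℝ := 1 + (max a b - a) with hL
  have hPB : ∀ k, ∀ x ∈ Set.Icc a (max a b), |(P k).eval x| ≤ B₀ + 2 * L := by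
    intro k x hx
    have h1 := hp k x hx
    have h2 := hB₀ x hx
    have h3 := hε1 k
    have h4 := hε0 k
    rw [hPe]
    rw [abs_le] at h1 h2 ⊢
    constructor <;> linarith [h1.1, h1.2, h2.1, h2.2]
  have hPB' : ∀ k, ∀ x ∈ Set.Icc a (max a b), |(derivative (P k)).eval x| ≤ B₁ + L := by
    intro k x hx
    have h1 := hp' k x hx
    have h2 := hB₁ x hx
    have h3 := hε1 k
    rw [hPd]
    rw [abs_le] at h1 h2 ⊢
    constructor <;> linarith [h1.1, h1.2, h2.1, h2.2]
  have hPder : ∀ k, ∀ x ∈ Set.Icc a (max a b), HasDerivWithinAt (fun t => (P k).eval t)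
      ((derivative (P k)).eval x) (Set.Icc a (max a b)) x := fun k x _ =>
    ((P k).hasDerivAt x).hasDerivWithinAt
  -- the inequality for polynomials
  have hk : ∀ k, ∫ z, en (U z) (m z) (fun a => D3 φ a z) (fun t => (P k).eval t)
      (fun t => (derivative (P k)).eval t) ∂(gQ n) ≤ ∫ z, ∑ l, (P k).eval (m z l) ∂(gQ n) := by
    intro k
    have h1 := hID n φ V c C a b M κ hV h (P k) (hP0 k)
    rw [Ex_eq, Ex_eq] at h1
    refine le_trans (le_of_eq ?_) (h1.trans (le_of_eq ?_))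
    · refine integral_congr_ae (ae_of_all _ fun z => ?_)
      show en (U z) (m z) (fun a => D3 φ a z) (fun t => (P k).eval t)
        (fun t => (derivative (P k)).eval t) = _
      rw [← en_eq (hsp.orth z) (fun i j k => D3_symm2 h.C2 z i j k), ← inv_eq h hS z,
        ← hsp.aeval_eq (P k) z]
      simp only [Dp_eq_schur (hsp.orth z) (hsp.eq z) (P k)]
    · refine integral_congr_ae (ae_of_all _ fun z => ?_)
      show (aeval (hess φ z) (P k) : Matrix (Fin n) (Fin n) ℝ).trace = ∑ l, (P k).eval (m z l)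
      rw [hsp.aeval_eq (P k) z, trace_fm (hsp.orth z)]
  -- limits
  have hlim0 : ∀ x ∈ Set.Icc a (max a b), Tendsto (fun k => (P k).eval x) atTop (𝓝 (Y x)) := by
    intro x hx
    have e1 : Tendsto (fun k => (p k).eval x) atTop (𝓝 (Y x)) := by
      rw [tendsto_iff_norm_sub_tendsto_zero]
      exact squeeze_zero (fun k => norm_nonneg _) (fun k => hp k x hx) hε
    simp only [hPe]
    simpa using e1.add hε
  have hlim1 : ∀ x ∈ Set.Icc a (max a b), ∀ y ∈ Set.Icc a (max a b),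
      Tendsto (fun k => dd (fun t => (P k).eval t) (fun t => (derivative (P k)).eval t) x y) atTop
        (𝓝 (dd Y Y' x y)) := by
    intro x hx y hy
    rw [tendsto_iff_norm_sub_tendsto_zero]
    refine squeeze_zero (fun k => norm_nonneg _) (fun k => ?_) hε
    rw [Real.norm_eq_abs]
    exact dd_close hYd (hPder k) (fun x hx => by rw [hPd]; exact hp' k x hx) hx hy
  have hptw : ∀ z, Tendsto (fun k => en (U z) (m z) (fun a => D3 φ a z) (fun t => (P k).eval t)
      (fun t => (derivative (P k)).eval t)) atTop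
      (𝓝 (en (U z) (m z) (fun a => D3 φ a z) Y Y')) := by
    intro z
    unfold en
    refine tendsto_finsetSum _ fun k _ => tendsto_finsetSum _ fun i _ => tendsto_finsetSum _
      fun j _ => Tendsto.const_mul _ (Tendsto.add ?_ ?_)
    · exact (hlim0 _ (hsp.mem z k)).div_const _
    · exact (hlim1 _ (hsp.mem z i) _ (hsp.mem z j)).div_const _
  have hdom : Integrable (fun z => ((B₀ + 2 * L) / (a * a) + (B₁ + L) / a) *
      ∑ a, ∑ i, ∑ j, D3 φ a z i j ^ 2) (gQ n) := by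
    refine BM.integrable (BM.mul (BM.const _) ?_)
    simp only [pow_two]
    exact BM.sum _ fun a _ => BM.sum _ fun i _ => BM.sum _ fun j _ =>
      BM.mul (hD a i j) (hD a i j)
  have hbnd : ∀ k z, |en (U z) (m z) (fun a => D3 φ a z) (fun t => (P k).eval t)
      (fun t => (derivative (P k)).eval t)| ≤ ((B₀ + 2 * L) / (a * a) + (B₁ + L) / a) *
      ∑ a, ∑ i, ∑ j, D3 φ a z i j ^ 2 := fun k z =>
    en_le (hsp.orth z) h.a_pos (hsp.mem z) (hPB k) (hPder k) (hPB' k)
  have hL0 : 0 ≤ L := by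
    have := hac
    rw [hL]
    linarith
  have hY0' : ∀ x ∈ Set.Icc a (max a b), |Y x| ≤ B₀ + 2 * L := fun x hx =>
    (hB₀ x hx).trans (by linarith)
  have hY1' : ∀ x ∈ Set.Icc a (max a b), |Y' x| ≤ B₁ + L := fun x hx =>
    (hB₁ x hx).trans (by linarith)
  have hmeas : AEStronglyMeasurable (fun z => en (U z) (m z) (fun a => D3 φ a z) Y Y') (gQ n) :=
    aestronglyMeasurable_of_tendsto_ae atTop (fun k => (bm_poly h hS (P k)).1)
      (ae_of_all _ fun z => hptw z)
  have hint : Integrable (fun z => en (U z) (m z) (fun a => D3 φ a z) Y Y') (gQ n) :=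
    Integrable.mono' hdom hmeas (ae_of_all _ fun z =>
      en_le (hsp.orth z) h.a_pos (hsp.mem z) hY0' hYd hY1')
  refine ⟨hint, ?_⟩
  have hI1 : Tendsto (fun k => ∫ z, en (U z) (m z) (fun a => D3 φ a z) (fun t => (P k).eval t)
      (fun t => (derivative (P k)).eval t) ∂(gQ n)) atTop
      (𝓝 (∫ z, en (U z) (m z) (fun a => D3 φ a z) Y Y' ∂(gQ n))) :=
    tendsto_integral_of_dominated_convergence _ (fun k => (bm_poly h hS (P k)).1) hdom
      (fun k => ae_of_all _ fun z => hbnd k z) (ae_of_all _ fun z => hptw z)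
  have hI2 : Tendsto (fun k => ∫ z, ∑ l, (P k).eval (m z l) ∂(gQ n)) atTop
      (𝓝 (∫ z, ∑ l, Y (m z l) ∂(gQ n))) := by
    refine tendsto_integral_of_dominated_convergence (fun _ => ∑ _l : Fin n, (B₀ + 2 * L))
      (fun k => ?_) (integrable_const _) (fun k => ae_of_all _ fun z => ?_)
      (ae_of_all _ fun z => ?_)
    · have e1 : ∀ z, ∑ l, (P k).eval (m z l) =
          (aeval (hess φ z) (P k) : Matrix (Fin n) (Fin n) ℝ).trace := fun z => by
        rw [hsp.aeval_eq (P k) z, trace_fm (hsp.orth z)]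
      simp only [e1]
      have hA : MBM (gQ n) fun z => (aeval (hess φ z) (P k) : Matrix (Fin n) (Fin n) ℝ) :=
        fun i j => (hmbl.aeval (P k) i j).bm
      exact hA.trace.1
    · rw [Real.norm_eq_abs]
      exact (Finset.abs_sum_le_sum_abs _ _).trans (Finset.sum_le_sum fun l _ =>
        hPB k _ (hsp.mem z l))
    · exact tendsto_finsetSum _ fun l _ => hlim0 _ (hsp.mem z l)
  exact le_of_tendsto_of_tendsto' hI1 hI2 hk

/-- **energy inequality for convex weights** -/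
theorem en_of (hID : StmtIDp) : StmtEN := by
  intro n φ V c C a b M κ hV h U m hS q q' hq hq'c hq'm hq0
  have := gQ_prob (n := n)
  have hac : a ≤ max a b := le_max_left _ _
  have hmbl := mbl_hess h hS
  have hsp := spec_of h hS
  have hH : MBM (gQ n) (hess φ) := fun i j => (hmbl i j).bm
  have hD := fun a => mbm_DA (μ := gQ n) hmbl a
  have hI := mbm_inv h hS
  have hY : ∀ x, 0 < x → HasDerivAt (fun t => q t / t) ((q' x * x - q x) / x ^ 2) x := by
    intro x hx
    have h1 := (hq x hx).fun_div (hasDerivAt_id' x) hx.ne'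
    simpa using h1
  have hqc : ContinuousOn q (Set.Ioi 0) := fun x hx => (hq x hx).continuousAt.continuousWithinAt
  have hY'c : ContinuousOn (fun x => (q' x * x - q x) / x ^ 2) (Set.Ioi 0) := by
    refine ContinuousOn.div ((hq'c.mul continuousOn_id).sub hqc) (by fun_prop) fun x hx => ?_
    exact pow_ne_zero 2 (ne_of_gt hx)
  obtain ⟨hint, hle⟩ := en1_of hID n φ V c C a b M κ hV h U m hS (fun t => q t / t)
    (fun x => (q' x * x - q x) / x ^ 2) hY hY'c (fun x hx => div_nonneg (hq0 x hx) hx.le)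
  have hqd : ∀ x ∈ Set.Icc a (max a b), HasDerivWithinAt q (q' x) (Set.Icc a (max a b)) x :=
    fun x hx => (hq x (h.a_pos.trans_le hx.1)).hasDerivWithinAt
  have hqcc : ContinuousOn q' (Set.Icc a (max a b)) := hq'c.mono fun x hx => h.a_pos.trans_le hx.1
  -- integrability of the left side
  have hbm : BM (gQ n) fun z => ∑ a, ∑ i, ∑ j, dd q q' (m z i) (m z j) / (m z i * m z j) *
      ((U z)ᵀ * D3 φ a z * U z) i j ^ 2 := by
    refine BM.sum _ fun d _ => ?_
    have e1 : ∀ z, ∑ i, ∑ j, dd q q' (m z i) (m z j) / (m z i * m z j) *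
        ((U z)ᵀ * D3 φ d z * U z) i j ^ 2 =
        ((hess φ z)⁻¹ * D3 φ d z * (hess φ z)⁻¹ *
          schur (U z) (fun i j => dd q q' (m z i) (m z j)) (D3 φ d z)).trace := by
      intro z
      have hs : (D3 φ d z)ᵀ = D3 φ d z := by
        ext i j
        exact D3_symm2 h.C2 z d j i
      have hU := hsp.orth z
      have hU' : U z * (U z)ᵀ = 1 := mul_eq_one_comm.1 hU
      have e2 : (hess φ z)⁻¹ * D3 φ d z * (hess φ z)⁻¹ =
          schur (U z) (fun i j => (m z i)⁻¹ * (m z j)⁻¹) (D3 φ d z) := by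
        rw [inv_eq h hS z]
        unfold fm schur
        calc U z * diagonal (fun i => (m z i)⁻¹) * (U z)ᵀ * D3 φ d z *
              (U z * diagonal (fun i => (m z i)⁻¹) * (U z)ᵀ)
            = U z * (diagonal (fun i => (m z i)⁻¹) * ((U z)ᵀ * D3 φ d z * U z) *
              diagonal (fun i => (m z i)⁻¹)) * (U z)ᵀ := by simp only [Matrix.mul_assoc]
          _ = _ := by
              congr 2
              ext i j
              rw [mul_diagonal, diagonal_mul, of_apply]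
              ring
      have e3 : ∀ A B : Matrix (Fin n) (Fin n) ℝ, (A * B).trace =
          (((U z)ᵀ * A * U z) * ((U z)ᵀ * B * U z)).trace := by
        intro A B
        calc (A * B).trace = (A * B * (U z * (U z)ᵀ)).trace := by rw [hU', Matrix.mul_one]
          _ = ((U z)ᵀ * (A * B * U z)).trace := by
              rw [← Matrix.mul_assoc, trace_mul_comm (A * B * U z)]
          _ = ((U z)ᵀ * A * (U z * (U z)ᵀ) * B * U z).trace := by
              rw [hU', Matrix.mul_one]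
              simp only [Matrix.mul_assoc]
          _ = _ := by simp only [Matrix.mul_assoc]
      rw [e2, e3, schur_frame hU, schur_frame hU, Matrix.trace]
      refine Finset.sum_congr rfl fun i _ => ?_
      rw [diag_apply, Matrix.mul_apply]
      refine Finset.sum_congr rfl fun j _ => ?_
      have hs' : ((U z)ᵀ * D3 φ d z * U z) j i = ((U z)ᵀ * D3 φ d z * U z) i j := by
        have : ((U z)ᵀ * D3 φ d z * U z)ᵀ = (U z)ᵀ * D3 φ d z * U z := by
          rw [transpose_mul, transpose_mul, transpose_transpose, hs, Matrix.mul_assoc]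
        exact congrFun (congrFun this i) j
      rw [of_apply, of_apply, hs', dd_comm q q' (m z j) (m z i), div_eq_mul_inv, mul_inv]
      ring
    simp only [e1]
    exact (((hI.mul (hD d)).mul hI).mul (schur_mbm hac hsp hH hqd hqcc (hD d))).trace
  refine ⟨hbm.integrable, ?_⟩
  rw [Ex_eq, Ex_eq]
  refine le_trans (integral_mono_ae hbm.integrable hint ?_) hle
  filter_upwards [ae_diff hmbl] with z hz
  rw [sum_rot_eq (hsp.orth z) (fun i j => dd q q' (m z i) (m z j) / (m z i * m z j))]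
  exact alg_diag_gen hq hq'm (fun i => h.a_pos.trans_le (hsp.mem z i).1)
    (rot_symm1 (D := fun a => D3 φ a z) fun i j k => rad_third h.C2 hz i j k)
    (rot_symm2 (D := fun a => D3 φ a z) fun i j k => D3_symm2 h.C2 z i j k)

end Vale.Agent.P254.S130
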