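import Vale.Agent.P254.S.H130.AlgM

/-!
# P254, block S: polynomials of a symmetric matrix and their derivatives

`dpow M X k` is the derivative of `M ↦ M ^ k` in direction `X`, `Dp p M X` the derivative of
`M ↦ p(M)`; in the eigenframe of `M` it is the multiplication by the divided differences of `p`.
Also approximation in `C¹` by polynomials.
-/

open Matrix Finset Polynomial

noncomputable section

namespace Vale.Agent.P254.S130

variable {ι : Type*} [Fintype ι] [DecidableEq ι]

/-- derivative of `M ↦ M ^ k` in direction `X` -/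
def dpow (M X : Matrix ι ι ℝ) : ℕ → Matrix ι ι ℝ
  | 0 => 0
  | k + 1 => dpow M X k * M + M ^ k * X

/-- derivative of `M ↦ p(M)` in direction `X` -/
def Dp (p : ℝ[X]) (M X : Matrix ι ι ℝ) : Matrix ι ι ℝ := p.sum fun k a => a • dpow M X k

/-- divided difference of `x ^ k` -/
def qd (x y : ℝ) : ℕ → ℝ
  | 0 => 0
  | k + 1 => qd x y k * y + x ^ k

lemma qd_mul (x y : ℝ) (k : ℕ) : qd x y k * (x - y) = x ^ k - y ^ k := by
  induction k with
  | zero => simp [qd]
  | succ k ih =>
    simp only [qd]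
    linear_combination y * ih

lemma qd_self (x : ℝ) (k : ℕ) : qd x x k = k * x ^ (k - 1) := by
  induction k with
  | zero => simp [qd]
  | succ k ih =>
    simp only [qd, ih, Nat.add_sub_cancel, Nat.cast_succ]
    rcases k with _ | k
    · simp
    · simp only [Nat.add_sub_cancel, pow_succ]
      ring

lemma qd_eq_dd (x y : ℝ) (p : ℝ[X]) :
    (p.sum fun k a => a * qd x y k) = dd (fun t => p.eval t) (fun t => (derivative p).eval t) x y := by
  unfold dd
  split_ifs with h
  · subst h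
    show _ = (derivative p).eval x
    rw [derivative_eval]
    refine Finset.sum_congr rfl fun k _ => ?_
    show p.coeff k * qd x x k = p.coeff k * k * x ^ (k - 1)
    rw [qd_self, mul_assoc]
  · have h0 : x - y ≠ 0 := sub_ne_zero.2 h
    rw [eq_div_iff h0]
    show _ = p.eval x - p.eval y
    rw [eval_eq_sum, eval_eq_sum, Polynomial.sum, Polynomial.sum, Polynomial.sum,
      Finset.sum_mul, ← Finset.sum_sub_distrib]
    refine Finset.sum_congr rfl fun k _ => ?_
    rw [mul_assoc, qd_mul]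
    ring

variable {U M : Matrix ι ι ℝ} {m : ι → ℝ}

lemma pow_diag (hU : Uᵀ * U = 1) (hM : M = U * diagonal m * Uᵀ) (k : ℕ) :
    M ^ k = U * diagonal (fun i => m i ^ k) * Uᵀ := by
  induction k with
  | zero =>
    simp only [pow_zero]
    have : U * Uᵀ = 1 := mul_eq_one_comm.1 hU
    rw [show (diagonal fun _ : ι => (1 : ℝ)) = 1 from diagonal_one, Matrix.mul_one, this]
  | succ k ih =>
    rw [pow_succ, ih, hM]
    calc U * diagonal (fun i => m i ^ k) * Uᵀ * (U * diagonal m * Uᵀ)
        = U * diagonal (fun i => m i ^ k) * (Uᵀ * U) * diagonal m * Uᵀ := by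
          simp only [Matrix.mul_assoc]
      _ = _ := by
          rw [hU, Matrix.mul_one, Matrix.mul_assoc U, diagonal_mul_diagonal]
          simp only [pow_succ]

lemma aeval_diag (hU : Uᵀ * U = 1) (hM : M = U * diagonal m * Uᵀ) (p : ℝ[X]) :
    aeval M p = U * diagonal (fun i => p.eval (m i)) * Uᵀ := by
  rw [aeval_eq_sum_range]
  have h : (diagonal fun i => p.eval (m i)) =
      ∑ k ∈ range (p.natDegree + 1), p.coeff k • diagonal (fun i => m i ^ k) := by
    ext i j
    rw [Matrix.sum_apply]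
    by_cases hij : i = j
    · subst hij
      simp only [diagonal_apply_eq, Matrix.smul_apply, smul_eq_mul]
      rw [eval_eq_sum_range]
    · simp [diagonal_apply_ne _ hij]
  rw [h, Finset.mul_sum, Finset.sum_mul]
  refine Finset.sum_congr rfl fun k _ => ?_
  rw [pow_diag hU hM, Matrix.mul_smul, Matrix.smul_mul]

lemma dpow_diag (hU : Uᵀ * U = 1) (hM : M = U * diagonal m * Uᵀ) (X : Matrix ι ι ℝ) (k : ℕ) :
    Uᵀ * dpow M X k * U = of fun i j => qd (m i) (m j) k * (Uᵀ * X * U) i j := by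
  have hU' : U * Uᵀ = 1 := mul_eq_one_comm.1 hU
  induction k with
  | zero =>
    ext i j
    simp [dpow, qd]
  | succ k ih =>
    have h1 : Uᵀ * dpow M X (k + 1) * U =
        (Uᵀ * dpow M X k * U) * diagonal m + diagonal (fun i => m i ^ k) * (Uᵀ * X * U) := by
      simp only [dpow]
      rw [pow_diag hU hM k, Matrix.mul_add, Matrix.add_mul]
      congr 1
      · rw [hM]
        calc Uᵀ * (dpow (U * diagonal m * Uᵀ) X k * (U * diagonal m * Uᵀ)) * U
            = Uᵀ * dpow (U * diagonal m * Uᵀ) X k * U * diagonal m * (Uᵀ * U) := by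
              simp only [Matrix.mul_assoc]
          _ = _ := by rw [hU, Matrix.mul_one]
      · calc Uᵀ * (U * diagonal (fun i => m i ^ k) * Uᵀ * X) * U
            = (Uᵀ * U) * diagonal (fun i => m i ^ k) * (Uᵀ * X * U) := by
              simp only [Matrix.mul_assoc]
          _ = _ := by rw [hU, Matrix.one_mul]
    rw [h1, ih]
    ext i j
    rw [Matrix.add_apply, mul_diagonal, diagonal_mul, of_apply, of_apply]
    simp only [qd]
    ring

/-- in the eigenframe the derivative of `p` is the multiplication by the divided differences -/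
lemma Dp_diag (hU : Uᵀ * U = 1) (hM : M = U * diagonal m * Uᵀ) (p : ℝ[X]) (X : Matrix ι ι ℝ)
    (i j : ι) : (Uᵀ * Dp p M X * U) i j =
      dd (fun t => p.eval t) (fun t => (derivative p).eval t) (m i) (m j) * (Uᵀ * X * U) i j := by
  rw [← qd_eq_dd, Dp, Polynomial.sum, Polynomial.sum, Finset.mul_sum, Finset.sum_mul,
    Matrix.sum_apply, Finset.sum_mul]
  refine Finset.sum_congr rfl fun k _ => ?_
  rw [Matrix.mul_smul, Matrix.smul_mul, Matrix.smul_apply, dpow_diag hU hM, of_apply, smul_eq_mul]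
  ring

/-- Frobenius norm is invariant -/
lemma frob_orth (hU : Uᵀ * U = 1) (X : Matrix ι ι ℝ) :
    ∑ i, ∑ j, ((Uᵀ * X * U) i j) ^ 2 = ∑ i, ∑ j, (X i j) ^ 2 := by
  have hU' : U * Uᵀ = 1 := mul_eq_one_comm.1 hU
  have key : ∀ Y : Matrix ι ι ℝ, ∑ i, ∑ j, (Y i j) ^ 2 = (Yᵀ * Y).trace := by
    intro Y
    rw [Matrix.trace, Finset.sum_comm]
    refine Finset.sum_congr rfl fun i _ => ?_
    rw [diag_apply, mul_apply]
    refine Finset.sum_congr rfl fun j _ => ?_
    rw [transpose_apply]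
    ring
  rw [key, key]
  have h1 : (Uᵀ * X * U)ᵀ * (Uᵀ * X * U) = Uᵀ * (Xᵀ * X * U) := by
    rw [transpose_mul, transpose_mul, transpose_transpose]
    calc Uᵀ * (Xᵀ * U) * (Uᵀ * X * U) = Uᵀ * Xᵀ * (U * Uᵀ) * X * U := by
          simp only [Matrix.mul_assoc]
      _ = _ := by
          rw [hU', Matrix.mul_one]
          simp only [Matrix.mul_assoc]
  rw [h1, trace_mul_comm, Matrix.mul_assoc, hU', Matrix.mul_one]

lemma Dp_frob (hU : Uᵀ * U = 1) (hM : M = U * diagonal m * Uᵀ) (p : ℝ[X]) (X : Matrix ι ι ℝ) :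
    ∑ i, ∑ j, (Dp p M X i j) ^ 2 = ∑ i, ∑ j,
      (dd (fun t => p.eval t) (fun t => (derivative p).eval t) (m i) (m j) *
        (Uᵀ * X * U) i j) ^ 2 := by
  rw [← frob_orth hU]
  refine Finset.sum_congr rfl fun i _ => Finset.sum_congr rfl fun j _ => ?_
  rw [Dp_diag hU hM]

/-- entries of `U diag(v) Uᵀ` are bounded by `sup |v|` -/
lemma conj_le (hU : Uᵀ * U = 1) {v : ι → ℝ} {B : ℝ} (hB : ∀ i, |v i| ≤ B) (hB0 : 0 ≤ B)
    (i j : ι) : |(U * diagonal v * Uᵀ) i j| ≤ B := by
  have hU' : U * Uᵀ = 1 := mul_eq_one_comm.1 hU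
  have hrow : ∀ i, ∑ k, U i k ^ 2 = 1 := by
    intro i
    have h := congrFun (congrFun hU' i) i
    rw [mul_apply, one_apply_eq] at h
    rw [← h]
    refine Finset.sum_congr rfl fun k _ => ?_
    rw [transpose_apply]
    ring
  rw [mul_apply]
  simp only [mul_diagonal, transpose_apply]
  calc |∑ k, U i k * v k * U j k| ≤ ∑ k, |U i k * v k * U j k| := abs_sum_le_sum_abs _ _
    _ ≤ ∑ k, B * ((U i k ^ 2 + U j k ^ 2) / 2) := by
        refine Finset.sum_le_sum fun k _ => ?_
        rw [abs_mul, abs_mul]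
        have h1 : |U i k| * |U j k| ≤ (U i k ^ 2 + U j k ^ 2) / 2 := by
          nlinarith [sq_nonneg (|U i k| - |U j k|), sq_abs (U i k), sq_abs (U j k)]
        calc |U i k| * |v k| * |U j k| = |v k| * (|U i k| * |U j k|) := by ring
          _ ≤ B * ((U i k ^ 2 + U j k ^ 2) / 2) :=
            mul_le_mul (hB k) h1 (by positivity) hB0
    _ = B := by
        rw [← Finset.mul_sum, ← Finset.sum_div, Finset.sum_add_distrib, hrow, hrow]
        ring

/-! ### polynomial approximation in `C¹` -/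

theorem exists_primitive (q : ℝ[X]) : ∃ p : ℝ[X], derivative p = q := by
  induction q using Polynomial.induction_on' with
  | add q q' h h' =>
    obtain ⟨p, hp⟩ := h
    obtain ⟨p', hp'⟩ := h'
    exact ⟨p + p', by rw [derivative_add, hp, hp']⟩
  | monomial n a =>
    refine ⟨monomial (n + 1) (a / ((n : ℝ) + 1)), ?_⟩
    rw [derivative_monomial, Nat.add_sub_cancel]
    congr 1
    have : (n : ℝ) + 1 ≠ 0 := by positivity
    push_cast
    field_simp

/-- approximation in `C¹` by polynomials on an interval -/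
theorem exists_poly {a b : ℝ} (hab : a ≤ b) {F F' : ℝ → ℝ}
    (hF : ∀ x ∈ Set.Icc a b, HasDerivWithinAt F (F' x) (Set.Icc a b) x)
    (hF' : ContinuousOn F' (Set.Icc a b)) {ε : ℝ} (hε : 0 < ε) :
    ∃ p : ℝ[X], (∀ x ∈ Set.Icc a b, |p.eval x - F x| ≤ ε * (b - a)) ∧
      ∀ x ∈ Set.Icc a b, |(derivative p).eval x - F' x| ≤ ε := by
  obtain ⟨q, hq⟩ := exists_polynomial_near_of_continuousOn a b F' hF' ε hε
  obtain ⟨p₀, hp₀⟩ := exists_primitive q
  have h1 : ∀ y ∈ Set.Icc a b, HasDerivWithinAt (fun y => p₀.eval y - F y)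
      (q.eval y - F' y) (Set.Icc a b) y := by
    intro y hy
    have h := (p₀.hasDerivAt y).hasDerivWithinAt (s := Set.Icc a b)
    rw [hp₀] at h
    exact h.sub (hF y hy)
  refine ⟨p₀ - C (p₀.eval a - F a), ?_, ?_⟩
  · intro x hx
    have h2 := (convex_Icc a b).norm_image_sub_le_of_norm_hasDerivWithin_le h1
      (C := ε) (fun y hy => (hq y hy).le) (Set.left_mem_Icc.2 hab) hx
    rw [Real.norm_eq_abs, Real.norm_eq_abs, abs_of_nonneg (sub_nonneg.2 hx.1)] at h2
    have h3 : (p₀ - C (p₀.eval a - F a)).eval x - F x =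
        p₀.eval x - F x - (p₀.eval a - F a) := by
      rw [eval_sub, eval_C]
      ring
    rw [h3]
    refine h2.trans (mul_le_mul_of_nonneg_left ?_ hε.le)
    linarith [hx.2]
  · intro x hx
    rw [derivative_sub, derivative_C, sub_zero, hp₀]
    exact (hq x hx).le

/-- divided differences of `C¹`-close functions are close -/
lemma dd_close {a b : ℝ} {F F' G G' : ℝ → ℝ} {ε : ℝ}
    (hF : ∀ x ∈ Set.Icc a b, HasDerivWithinAt F (F' x) (Set.Icc a b) x)
    (hG : ∀ x ∈ Set.Icc a b, HasDerivWithinAt G (G' x) (Set.Icc a b) x)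
    (h : ∀ x ∈ Set.Icc a b, |G' x - F' x| ≤ ε) {x y : ℝ} (hx : x ∈ Set.Icc a b)
    (hy : y ∈ Set.Icc a b) : |dd G G' x y - dd F F' x y| ≤ ε := by
  unfold dd
  by_cases hxy : x = y
  · rw [if_pos hxy, if_pos hxy]
    exact h x hx
  · rw [if_neg hxy, if_neg hxy]
    have h1 : ∀ t ∈ Set.Icc a b, HasDerivWithinAt (fun t => G t - F t)
        (G' t - F' t) (Set.Icc a b) t := fun t ht => (hG t ht).sub (hF t ht)
    have h2 := (convex_Icc a b).norm_image_sub_le_of_norm_hasDerivWithin_le h1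
      (C := ε) (fun t ht => h t ht) hy hx
    rw [Real.norm_eq_abs, Real.norm_eq_abs] at h2
    have h0 : 0 < |x - y| := abs_pos.2 (sub_ne_zero.2 hxy)
    rw [← sub_div, abs_div, div_le_iff₀ h0]
    have e : G x - G y - (F x - F y) = G x - F x - (G y - F y) := by ring
    rw [e]
    exact h2

/-- divided differences of a function with bounded derivative are bounded -/
lemma dd_bdd {a b : ℝ} {F F' : ℝ → ℝ} {B : ℝ}
    (hF : ∀ x ∈ Set.Icc a b, HasDerivWithinAt F (F' x) (Set.Icc a b) x)
    (h : ∀ x ∈ Set.Icc a b, |F' x| ≤ B) {x y : ℝ} (hx : x ∈ Set.Icc a b)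
    (hy : y ∈ Set.Icc a b) : |dd F F' x y| ≤ B := by
  unfold dd
  by_cases hxy : x = y
  · rw [if_pos hxy]
    exact h x hx
  · rw [if_neg hxy]
    have h2 := (convex_Icc a b).norm_image_sub_le_of_norm_hasDerivWithin_le hF
      (C := B) (fun t ht => h t ht) hy hx
    rw [Real.norm_eq_abs, Real.norm_eq_abs] at h2
    have h0 : 0 < |x - y| := abs_pos.2 (sub_ne_zero.2 hxy)
    rw [abs_div, div_le_iff₀ h0]
    exact h2

end Vale.Agent.P254.S130
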