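import Vale.Agent.P254.S.Iface
import Vale.Agent.P254.S.H130.Poly

/-!
# P254, block S: the Gaussian measure of `Ex Q`, bounded measurable and bounded Lipschitz functions
-/

open MeasureTheory Matrix Finset Polynomial
open scoped ENNReal

noncomputable section

namespace Vale.Agent.P254.S130

open Vale.Agent.P227.M Vale.Agent.P254.S

variable {n : ℕ}

lemma Q_eq (z : E n) : -Q z = -(1 / 2 : ℝ) * ‖z‖ ^ 2 := by
  unfold Q
  ring

lemma Z_eq : ∫ z : E n, Real.exp (-Q z) = (Real.pi / (1 / 2)) ^ ((Module.finrank ℝ (E n) : ℝ) / 2) := by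
  simp only [Q_eq]
  exact GaussianFourier.integral_rexp_neg_mul_sq_norm (by norm_num)

lemma Z_pos : 0 < ∫ z : E n, Real.exp (-Q z) := by
  rw [Z_eq]
  positivity

lemma int_exp : Integrable fun z : E n => Real.exp (-Q z) := by
  by_contra h
  exact Z_pos.ne' (integral_undef h)

lemma cont_Q : Continuous (Q : E n → ℝ) := by
  unfold Q
  fun_prop

/-- the density of the standard Gaussian -/
def dens (z : E n) : ℝ := Real.exp (-Q z) / ∫ z : E n, Real.exp (-Q z)

lemma dens_pos (z : E n) : 0 < dens z := div_pos (Real.exp_pos _) Z_pos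

lemma dens_cont : Continuous (dens : E n → ℝ) := by
  unfold dens
  exact (Real.continuous_exp.comp cont_Q.neg).div_const _

lemma dens_int : Integrable (dens : E n → ℝ) := int_exp.div_const _

lemma dens_one : ∫ z : E n, dens z = 1 := by
  unfold dens
  rw [integral_div]
  exact div_self Z_pos.ne'

/-- the standard Gaussian measure -/
def gQ (n : ℕ) : Measure (E n) := volume.withDensity fun z => ENNReal.ofReal (dens z)

lemma gQ_ac : gQ n ≪ (volume : Measure (E n)) := withDensity_absolutelyContinuous _ _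

lemma gQ_prob : IsProbabilityMeasure (gQ n) := by
  constructor
  rw [gQ, withDensity_apply _ MeasurableSet.univ, Measure.restrict_univ,
    ← ofReal_integral_eq_lintegral_ofReal dens_int (ae_of_all _ fun z => (dens_pos z).le), dens_one,
    ENNReal.ofReal_one]

/-- `Ex Q` is the integral against `gQ` -/
lemma Ex_eq (f : E n → ℝ) : Ex Q f = ∫ z, f z ∂(gQ n) := by
  have h := integral_withDensity_eq_integral_toReal_smul (μ := (volume : Measure (E n)))
    (f := fun z : E n => ENNReal.ofReal (dens z))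
    (ENNReal.measurable_ofReal.comp dens_cont.measurable)
    (ae_of_all _ fun z => ENNReal.ofReal_lt_top) f
  rw [gQ, h]
  unfold Ex
  rw [← integral_div]
  refine integral_congr_ae (ae_of_all _ fun z => ?_)
  show _ = (ENNReal.ofReal (dens z)).toReal • f z
  rw [ENNReal.toReal_ofReal (dens_pos z).le, smul_eq_mul, dens]
  ring

/-! ### bounded measurable functions -/

/-- bounded and measurable -/
def BM (μ : Measure (E n)) (f : E n → ℝ) : Prop :=
  AEStronglyMeasurable f μ ∧ ∃ B, ∀ z, |f z| ≤ B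

variable {μ : Measure (E n)} {f g : E n → ℝ}

lemma BM.add (hf : BM μ f) (hg : BM μ g) : BM μ fun z => f z + g z := by
  obtain ⟨hf, A, hA⟩ := hf
  obtain ⟨hg, B, hB⟩ := hg
  exact ⟨hf.add hg, A + B, fun z => (abs_add_le _ _).trans (add_le_add (hA z) (hB z))⟩

lemma BM.mul (hf : BM μ f) (hg : BM μ g) : BM μ fun z => f z * g z := by
  obtain ⟨hf, A, hA⟩ := hf
  obtain ⟨hg, B, hB⟩ := hg
  refine ⟨hf.mul hg, A * B, fun z => ?_⟩
  rw [abs_mul]
  exact mul_le_mul (hA z) (hB z) (abs_nonneg _) ((abs_nonneg _).trans (hA z))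

lemma BM.const (c : ℝ) : BM μ fun _ : E n => c := ⟨aestronglyMeasurable_const, |c|, fun _ => le_rfl⟩

lemma BM.sum {κ : Type*} (s : Finset κ) {f : κ → E n → ℝ} (h : ∀ k ∈ s, BM μ (f k)) :
    BM μ fun z => ∑ k ∈ s, f k z := by
  classical
  induction s using Finset.induction_on with
  | empty => simp only [Finset.sum_empty]; exact BM.const 0
  | insert k s hk ih =>
    simp only [Finset.sum_insert hk]
    exact (h k (Finset.mem_insert_self _ _)).add (ih fun j hj => h j (Finset.mem_insert_of_mem hj))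

lemma BM.integrable [IsFiniteMeasure μ] (hf : BM μ f) : Integrable f μ := by
  obtain ⟨hf, A, hA⟩ := hf
  exact Integrable.of_bound hf A (ae_of_all _ fun z => hA z)

/-- entries of a matrix field -/
def MBM (μ : Measure (E n)) (A : E n → Matrix (Fin n) (Fin n) ℝ) : Prop :=
  ∀ i j, BM μ fun z => A z i j

lemma MBM.mul {A B : E n → Matrix (Fin n) (Fin n) ℝ} (hA : MBM μ A) (hB : MBM μ B) :
    MBM μ fun z => A z * B z := fun i j => by
  simp only [mul_apply]
  exact BM.sum _ fun k _ => (hA i k).mul (hB k j)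

lemma MBM.add {A B : E n → Matrix (Fin n) (Fin n) ℝ} (hA : MBM μ A) (hB : MBM μ B) :
    MBM μ fun z => A z + B z := fun i j => (hA i j).add (hB i j)

lemma MBM.smul {A : E n → Matrix (Fin n) (Fin n) ℝ} (c : ℝ) (hA : MBM μ A) :
    MBM μ fun z => c • A z := fun i j => (BM.const c).mul (hA i j)

lemma MBM.one : MBM μ fun _ : E n => (1 : Matrix (Fin n) (Fin n) ℝ) := fun _ _ => BM.const _

lemma MBM.trace {A : E n → Matrix (Fin n) (Fin n) ℝ} (hA : MBM μ A) : BM μ fun z => (A z).trace := by
  simp only [Matrix.trace, diag_apply]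
  exact BM.sum _ fun k _ => hA k k

/-! ### bounded Lipschitz functions -/

/-- bounded and Lipschitz -/
def BL (f : E n → ℝ) : Prop := (∃ B, ∀ z, |f z| ≤ B) ∧ ∃ K, ∀ x y, |f x - f y| ≤ K * ‖x - y‖

lemma BL.add (hf : BL f) (hg : BL g) : BL fun z => f z + g z := by
  obtain ⟨⟨A, hA⟩, K, hK⟩ := hf
  obtain ⟨⟨B, hB⟩, L, hL⟩ := hg
  refine ⟨⟨A + B, fun z => (abs_add_le _ _).trans (add_le_add (hA z) (hB z))⟩, K + L, fun x y => ?_⟩
  have e : f x + g x - (f y + g y) = (f x - f y) + (g x - g y) := by ring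
  rw [e, add_mul]
  exact (abs_add_le _ _).trans (add_le_add (hK x y) (hL x y))

lemma BL.mul (hf : BL f) (hg : BL g) : BL fun z => f z * g z := by
  obtain ⟨⟨A, hA⟩, K, hK⟩ := hf
  obtain ⟨⟨B, hB⟩, L, hL⟩ := hg
  refine ⟨⟨A * B, fun z => ?_⟩, A * L + B * K, fun x y => ?_⟩
  · rw [abs_mul]
    exact mul_le_mul (hA z) (hB z) (abs_nonneg _) ((abs_nonneg _).trans (hA z))
  · have e : f x * g x - f y * g y = f x * (g x - g y) + g y * (f x - f y) := by ring
    rw [e]
    refine (abs_add_le _ _).trans ?_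
    rw [abs_mul, abs_mul]
    have h1 : |f x| * |g x - g y| ≤ A * (L * ‖x - y‖) :=
      mul_le_mul (hA x) (hL x y) (abs_nonneg _) ((abs_nonneg _).trans (hA x))
    have h2 : |g y| * |f x - f y| ≤ B * (K * ‖x - y‖) :=
      mul_le_mul (hB y) (hK x y) (abs_nonneg _) ((abs_nonneg _).trans (hB y))
    calc _ ≤ A * (L * ‖x - y‖) + B * (K * ‖x - y‖) := add_le_add h1 h2
      _ = _ := by ring

lemma BL.const (c : ℝ) : BL fun _ : E n => c :=
  ⟨⟨|c|, fun _ => le_rfl⟩, 0, fun x y => by simp⟩

lemma BL.sum {κ : Type*} (s : Finset κ) {f : κ → E n → ℝ} (h : ∀ k ∈ s, BL (f k)) :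
    BL fun z => ∑ k ∈ s, f k z := by
  classical
  induction s using Finset.induction_on with
  | empty => simp only [Finset.sum_empty]; exact BL.const 0
  | insert k s hk ih =>
    simp only [Finset.sum_insert hk]
    exact (h k (Finset.mem_insert_self _ _)).add (ih fun j hj => h j (Finset.mem_insert_of_mem hj))

lemma BL.lipschitz (hf : BL f) : ∃ K : NNReal, LipschitzWith K f := by
  obtain ⟨-, K, hK⟩ := hf
  refine ⟨⟨|K|, abs_nonneg K⟩, LipschitzWith.of_dist_le_mul fun x y => ?_⟩
  rw [Real.dist_eq, dist_eq_norm]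
  exact (hK x y).trans (mul_le_mul_of_nonneg_right (le_abs_self K) (norm_nonneg _))

lemma BL.bm (hf : BL f) : BM μ f := by
  obtain ⟨K, hK⟩ := hf.lipschitz
  exact ⟨hK.continuous.aestronglyMeasurable, hf.1⟩

/-- entries are bounded and Lipschitz -/
def MBL (A : E n → Matrix (Fin n) (Fin n) ℝ) : Prop := ∀ i j, BL fun z => A z i j

lemma MBL.mul {A B : E n → Matrix (Fin n) (Fin n) ℝ} (hA : MBL A) (hB : MBL B) :
    MBL fun z => A z * B z := fun i j => by
  simp only [mul_apply]
  exact BL.sum _ fun k _ => (hA i k).mul (hB k j)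

lemma MBL.pow {A : E n → Matrix (Fin n) (Fin n) ℝ} (hA : MBL A) (k : ℕ) :
    MBL fun z => A z ^ k := by
  induction k with
  | zero => intro i j; simp only [pow_zero]; exact BL.const _
  | succ k ih =>
    simp only [pow_succ]
    exact ih.mul hA

lemma MBL.aeval {A : E n → Matrix (Fin n) (Fin n) ℝ} (hA : MBL A) (p : ℝ[X]) :
    MBL fun z => (Polynomial.aeval (A z) p : Matrix (Fin n) (Fin n) ℝ) := fun i j => by
  simp only [aeval_eq_sum_range, Matrix.sum_apply, Matrix.smul_apply, smul_eq_mul]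
  exact BL.sum _ fun k _ => (BL.const _).mul (hA.pow k i j)

/-! ### derivatives of polynomials -/

section deriv

variable {V : Type*} [NormedAddCommGroup V] [NormedSpace ℝ V] {ι : Type*} [Fintype ι]
  [DecidableEq ι] {A : V → Matrix ι ι ℝ} {L : ι → ι → V →L[ℝ] ℝ} {z : V}

lemma hasFD_pow (hA : ∀ i j, HasFDerivAt (fun y => A y i j) (L i j) z) (k : ℕ) (i j : ι) :
    ∃ L' : V →L[ℝ] ℝ, HasFDerivAt (fun y => (A y ^ k) i j) L' z ∧
      ∀ v, L' v = dpow (A z) (Matrix.of fun i j => L i j v) k i j := by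
  induction k generalizing i j with
  | zero =>
    refine ⟨0, ?_, fun v => ?_⟩
    · simp only [pow_zero]
      exact hasFDerivAt_const _ _
    · rfl
  | succ k ih =>
    choose L' hL' hv using ih
    refine ⟨∑ l, ((A z ^ k) i l • L l j + A z l j • L' i l), ?_, fun v => ?_⟩
    · simp only [pow_succ, mul_apply]
      exact HasFDerivAt.fun_sum fun l _ => (hL' i l).mul (hA l j)
    · simp only [dpow, Matrix.add_apply, Matrix.mul_apply, _root_.sum_apply,
        _root_.add_apply, _root_.smul_apply, smul_eq_mul, hv, Matrix.of_apply]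
      rw [← Finset.sum_add_distrib]
      refine Finset.sum_congr rfl fun l _ => ?_
      ring

lemma hasFD_aeval (hA : ∀ i j, HasFDerivAt (fun y => A y i j) (L i j) z) (p : ℝ[X]) (i j : ι) :
    ∃ L' : V →L[ℝ] ℝ, HasFDerivAt (fun y => (aeval (A y) p : Matrix ι ι ℝ) i j) L' z ∧
      ∀ v, L' v = Dp p (A z) (Matrix.of fun i j => L i j v) i j := by
  choose L' hL' hv using fun k => hasFD_pow hA k i j
  refine ⟨∑ k ∈ range (p.natDegree + 1), p.coeff k • L' k, ?_, fun v => ?_⟩
  · simp only [aeval_eq_sum_range, Matrix.sum_apply, Matrix.smul_apply, smul_eq_mul]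
    exact HasFDerivAt.fun_sum fun k _ => (hL' k).const_mul _
  · unfold Dp
    rw [Polynomial.sum_over_range]
    · simp only [Matrix.sum_apply, Matrix.smul_apply, _root_.sum_apply,
        _root_.smul_apply, smul_eq_mul, hv]
    · intro k
      exact zero_smul _ _

end deriv

end Vale.Agent.P254.S130
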