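import Vale.Agent.P254.S290.Main
import Vale.Agent.P254.SP.H620.DK
import Vale.Agent.P254.S.H130.En

/-!
# P254, S-ID with a general bounded Lipschitz positive semidefinite weight field `Y`

Adapted from helper290's `S290/Final.lean` (`ident_BL` is his identity).
-/

set_option linter.all false

open MeasureTheory Filter Topology
open scoped NNReal ContDiff MatrixOrder

namespace Vale.Agent.P254.S290

variable {n : ℕ} {φ U V : E n → ℝ} {c C K a : ℝ}

/-- the two quadratic terms -/
noncomputable def LqY (Y : E n → Matrix (Fin n) (Fin n) ℝ) (DY : Fin n → E n → Matrix (Fin n) (Fin n) ℝ)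
    (φ : E n → ℝ) (z : E n) : ℝ :=
  ∑ i, ∑ j, (Y z) i j * ((hess φ z)⁻¹ * Dm φ i z * (hess φ z)⁻¹ * Dm φ j z).trace +
    ∑ a, ∑ b, (hess φ z)⁻¹ a b * (Dm φ a z * DY b z).trace

/-- pointwise identity at the good points -/
lemma sum_Xf_goodY (h : PC φ c C K) (hU : ContDiff ℝ 2 U) (hV : ContDiff ℝ 2 V) {z : E n}
    {Y : E n → Matrix (Fin n) (Fin n) ℝ} {DY : Fin n → E n → Matrix (Fin n) (Fin n) ℝ}
    (hDY : ∀ a i j, pd a (fun z => Y z i j) z = DY a z i j)
    (hDYs : ∀ a i j, DY a z i j = DY a z j i) :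
    ∑ i, ∑ j, Xf φ U V i j (fun z => Y z i j) z =
      (Y z * hess V z).trace - LqY Y DY φ z
        - (Y z * (hess φ z * hess U (gr φ z) * hess φ z)).trace := by
  have hsV : ∀ i j, hess V z i j = hess V z j i := fun i j => hess_symm hV z i j
  have hsU : (hess U (gr φ z)).transpose = hess U (gr φ z) := by
    ext i j; exact hess_symm hU (gr φ z) j i
  have hsMt := hess_transpose h z
  have hsN : ∀ i j, (hess φ z * hess U (gr φ z) * hess φ z) i j = (hess φ z * hess U (gr φ z) * hess φ z) j i := by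
    intro i j
    have : (hess φ z * hess U (gr φ z) * hess φ z).transpose = hess φ z * hess U (gr φ z) * hess φ z := by
      rw [Matrix.transpose_mul, Matrix.transpose_mul, hsMt, hsU, mul_assoc]
    exact (congrFun (congrFun this j) i)
  rw [trace_mul_eq _ _ hsV, trace_mul_eq _ _ hsN]
  have e1 : ∀ i j, Xf φ U V i j (fun z => Y z i j) z =
      Y z i j * hess V z i j
        - Y z i j * ((hess φ z)⁻¹ * Dm φ i z * (hess φ z)⁻¹ * Dm φ j z).trace
        - Y z i j * (hess φ z * hess U (gr φ z) * hess φ z) i j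
        - ∑ a, ∑ b, tau φ z a b * (DY a z i j * Dm φ b z i j) := by
    intro i j
    unfold Xf
    rw [Sf_eq h, ← MWM_eq]
    have e2 : ∀ a b, tau φ z a b * pd a (fun z => Y z i j) z * T3 φ z b i j =
        tau φ z a b * (DY a z i j * Dm φ b z i j) := by
      intro a b
      rw [hDY, mul_assoc, Dm_apply b i j]
    simp only [e2]
    ring
  simp only [e1, Finset.sum_sub_distrib]
  have e3 : ∑ i, ∑ j, ∑ a, ∑ b, tau φ z a b * (DY a z i j * Dm φ b z i j) =
      ∑ a, ∑ b, (hess φ z)⁻¹ a b * (Dm φ a z * DY b z).trace := by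
    have s1 : ∀ i, ∑ j, ∑ a, ∑ b, tau φ z a b * (DY a z i j * Dm φ b z i j) =
        ∑ a, ∑ b, ∑ j, tau φ z a b * (DY a z i j * Dm φ b z i j) := by
      intro i
      rw [Finset.sum_comm]
      exact Finset.sum_congr rfl fun a _ => Finset.sum_comm
    simp only [s1]
    rw [Finset.sum_comm]
    rw [Finset.sum_comm (s := (Finset.univ : Finset (Fin n))) (t := (Finset.univ : Finset (Fin n)))
      (f := fun a b => (hess φ z)⁻¹ a b * (Dm φ a z * DY b z).trace)]
    refine Finset.sum_congr rfl fun a _ => ?_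
    rw [Finset.sum_comm]
    refine Finset.sum_congr rfl fun b _ => ?_
    rw [trace_mul_eq _ _ (fun i j => hDYs a i j), tau_symm h z a b, Finset.mul_sum]
    refine Finset.sum_congr rfl fun i _ => ?_
    rw [Finset.mul_sum]
    refine Finset.sum_congr rfl fun j _ => ?_
    unfold tau
    ring
  rw [e3]
  unfold LqY
  ring

/-- **S-ID**, general weight field `Y ≥ 0`. -/
theorem s_idY (h : PC φ c C K) (hU : ContDiff ℝ 2 U) (hV : ContDiff ℝ 2 V) (hMA : MA φ U V a)
    {BU BV : ℝ} (hBU : ∀ y i j, |hess U y i j| ≤ BU) (hBV : ∀ y i j, |hess V y i j| ≤ BV)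
    (hI : Integrable fun z => Real.exp (-V z)) (hcv : ∀ y v, 0 ≤ qf (hess U y) v)
    {Y : E n → Matrix (Fin n) (Fin n) ℝ} {DY : Fin n → E n → Matrix (Fin n) (Fin n) ℝ}
    (hY : ∀ i j, BL fun z => Y z i j) (hYp : ∀ z, (Y z).PosSemidef)
    (hDY : ∀ᵐ z, ∀ a i j, pd a (fun z => Y z i j) z = DY a z i j)
    (hDYs : ∀ z a i j, DY a z i j = DY a z j i) :
    (Integrable fun z => Real.exp (-V z) * (Y z * hess V z).trace) ∧
    (Integrable fun z => Real.exp (-V z) * LqY Y DY φ z) ∧
    ∫ z, Real.exp (-V z) * LqY Y DY φ z ≤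
      ∫ z, Real.exp (-V z) * (Y z * hess V z).trace := by
  have hX : ∀ i j, Integrable fun z => Real.exp (-V z) *
      Xf φ U V i j (fun z => Y z i j) z := fun i j =>
    integrable_Xf h hV hBU hBV hI (hY i j) i j
  have hX0 : ∀ i j, ∫ z, Real.exp (-V z) * Xf φ U V i j (fun z => Y z i j) z = 0 :=
    fun i j => ident_BL h hU hV hMA hBU hBV hI (hY i j) i j
  have hs : ∫ z, Real.exp (-V z) * ∑ i, ∑ j, Xf φ U V i j (fun z => Y z i j) z = 0 := by
    simp only [Finset.mul_sum]
    rw [integral_finsetSum _ fun i _ => integrable_finsetSum _ fun j _ => hX i j]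
    refine Finset.sum_eq_zero fun i _ => ?_
    rw [integral_finsetSum _ fun j _ => hX i j]
    exact Finset.sum_eq_zero fun j _ => hX0 i j
  have hsI : Integrable fun z => Real.exp (-V z) *
      ∑ i, ∑ j, Xf φ U V i j (fun z => Y z i j) z := by
    simp only [Finset.mul_sum]
    exact integrable_finsetSum _ fun i _ => integrable_finsetSum _ fun j _ => hX i j
  -- integrability of the simple terms
  have hPb : ∀ i j, ∃ B : ℝ, ∀ z, |Y z i j| ≤ B := fun i j => by
    obtain ⟨_, B, _, hB⟩ := hY i j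
    exact ⟨B, hB⟩
  have hPm : ∀ i j, Measurable fun z => Y z i j := fun i j =>
    (hY i j).continuous.measurable
  have hsV : ∀ z i j, hess V z i j = hess V z j i := fun z i j => hess_symm hV z i j
  have hI1 : Integrable fun z => Real.exp (-V z) * (Y z * hess V z).trace := by
    have : ∀ z, Real.exp (-V z) * (Y z * hess V z).trace =
        ∑ i, ∑ j, Real.exp (-V z) * (Y z i j * hess V z i j) := by
      intro z
      rw [trace_mul_eq _ _ (hsV z)]
      simp only [Finset.mul_sum]
    simp only [this]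
    refine integrable_finsetSum _ fun i _ => integrable_finsetSum _ fun j _ => ?_
    obtain ⟨B, hB⟩ := hPb i j
    refine hI.mul_bdd (c := B * BV) ((hPm i j).mul (measurable_hess V i j)).aestronglyMeasurable ?_
    refine Eventually.of_forall fun z => ?_
    rw [Real.norm_eq_abs, abs_mul]
    exact mul_le_mul (hB z) (hBV z i j) (abs_nonneg _) ((abs_nonneg _).trans (hB z))
  have hNs : ∀ z i j, (hess φ z * hess U (gr φ z) * hess φ z) i j =
      (hess φ z * hess U (gr φ z) * hess φ z) j i := by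
    intro z i j
    have hsU : (hess U (gr φ z)).transpose = hess U (gr φ z) := by
      ext i j; exact hess_symm hU (gr φ z) j i
    have : (hess φ z * hess U (gr φ z) * hess φ z).transpose = hess φ z * hess U (gr φ z) * hess φ z := by
      rw [Matrix.transpose_mul, Matrix.transpose_mul, hess_transpose h z, hsU, mul_assoc]
    exact (congrFun (congrFun this j) i)
  have hI2 : Integrable fun z => Real.exp (-V z) *
      (Y z * (hess φ z * hess U (gr φ z) * hess φ z)).trace := by
    have : ∀ z, Real.exp (-V z) * (Y z * (hess φ z * hess U (gr φ z) * hess φ z)).trace =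
        ∑ i, ∑ j, Real.exp (-V z) * (Y z i j * MWM φ U z i j) := by
      intro z
      rw [trace_mul_eq _ _ (hNs z)]
      simp only [Finset.mul_sum, MWM_eq]
    simp only [this]
    refine integrable_finsetSum _ fun i _ => integrable_finsetSum _ fun j _ => ?_
    obtain ⟨B, hB⟩ := hPb i j
    refine hI.mul_bdd (c := B * ((n : ℝ) ^ 2 * (2 * |C| * BU * (2 * |C|))))
      ((hPm i j).mul (measurable_MWM h i j)).aestronglyMeasurable ?_
    refine Eventually.of_forall fun z => ?_
    rw [Real.norm_eq_abs, abs_mul]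
    exact mul_le_mul (hB z) (MWM_abs_le h hBU z i j) (abs_nonneg _) ((abs_nonneg _).trans (hB z))
  have hpt : ∀ᵐ z, Real.exp (-V z) * LqY Y DY φ z =
      Real.exp (-V z) * (Y z * hess V z).trace
      - Real.exp (-V z) * (Y z * (hess φ z * hess U (gr φ z) * hess φ z)).trace
      - Real.exp (-V z) * ∑ i, ∑ j, Xf φ U V i j (fun z => Y z i j) z := by
    filter_upwards [hDY] with z hz
    rw [sum_Xf_goodY h hU hV hz (hDYs z)]; ring
  have hI3 : Integrable fun z => Real.exp (-V z) * LqY Y DY φ z :=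
    ((hI1.sub hI2).sub hsI).congr (hpt.mono fun z hz => hz.symm)
  refine ⟨hI1, hI3, ?_⟩
  have hI12 : Integrable fun z => Real.exp (-V z) * (Y z * hess V z).trace
      - Real.exp (-V z) * (Y z * (hess φ z * hess U (gr φ z) * hess φ z)).trace := hI1.sub hI2
  have e1 : ∫ z, (Real.exp (-V z) * (Y z * hess V z).trace
      - Real.exp (-V z) * (Y z * (hess φ z * hess U (gr φ z) * hess φ z)).trace
      - Real.exp (-V z) * ∑ i, ∑ j, Xf φ U V i j (fun z => Y z i j) z) =
      (∫ z, (Real.exp (-V z) * (Y z * hess V z).trace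
      - Real.exp (-V z) * (Y z * (hess φ z * hess U (gr φ z) * hess φ z)).trace))
      - ∫ z, Real.exp (-V z) * ∑ i, ∑ j, Xf φ U V i j (fun z => Y z i j) z :=
    integral_sub hI12 hsI
  have e2 : ∫ z, (Real.exp (-V z) * (Y z * hess V z).trace
      - Real.exp (-V z) * (Y z * (hess φ z * hess U (gr φ z) * hess φ z)).trace) =
      (∫ z, Real.exp (-V z) * (Y z * hess V z).trace)
      - ∫ z, Real.exp (-V z) * (Y z * (hess φ z * hess U (gr φ z) * hess φ z)).trace :=
    integral_sub hI1 hI2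
  rw [integral_congr_ae hpt, e1, e2, hs, sub_zero]
  have hnn : 0 ≤ ∫ z, Real.exp (-V z) *
      (Y z * (hess φ z * hess U (gr φ z) * hess φ z)).trace := by
    refine integral_nonneg fun z => mul_nonneg (Real.exp_pos _).le ?_
    refine trace_mul_nonneg (hYp z) ?_
    have hsU : (hess U (gr φ z)).transpose = hess U (gr φ z) := by
      ext i j; exact hess_symm hU (gr φ z) j i
    have h1 := (psd_of_qf hsU (hcv (gr φ z))).mul_mul_conjTranspose_same (hess φ z)
    rwa [Matrix.conjTranspose_eq_transpose_of_trivial, hess_transpose h z] at h1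
  linarith

end Vale.Agent.P254.S290

namespace Vale.Agent.P254.S130

open Vale.Agent.P227.M Vale.Agent.P254.S Matrix Polynomial

variable {n : ℕ} {φ V : E n → ℝ} {a b M κ : ℝ}

/-- a field of spectral decompositions of the Hessian -/
lemma exists_spec (h : ContDiff ℝ 2 φ) : ∃ (U : E n → Matrix (Fin n) (Fin n) ℝ)
    (m : E n → Fin n → ℝ), S.Spec (hess φ) U m := by
  have h1 : ∀ z, (hess φ z)ᵀ = hess φ z := fun z => by
    ext i j
    exact rad_hess_symm h z j i
  choose U m hdec using fun z => SP620.exists_dec (h1 z)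
  exact ⟨U, m, ⟨fun z => (hdec z).orth', fun z => (hdec z).eq⟩⟩

lemma Dp_symm {A X : Matrix (Fin n) (Fin n) ℝ} {U : Matrix (Fin n) (Fin n) ℝ} {m : Fin n → ℝ}
    (hU : Uᵀ * U = 1) (hA : A = U * diagonal m * Uᵀ) (hX : Xᵀ = X) (p : ℝ[X]) :
    (Dp p A X)ᵀ = Dp p A X := by
  rw [Dp_eq_schur hU hA]
  unfold schur
  set Z : Matrix (Fin n) (Fin n) ℝ := of fun i j => (fun i j => dd (fun t => eval t p)
    (fun t => eval t (derivative p)) (m i) (m j)) i j * (Uᵀ * X * U) i j with hZ
  have hXs : (Uᵀ * X * U)ᵀ = Uᵀ * X * U := by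
    rw [transpose_mul, transpose_mul, transpose_transpose, hX, Matrix.mul_assoc]
  have hZs : Zᵀ = Z := by
    ext i j
    rw [hZ, transpose_apply, of_apply, of_apply]
    simp only
    rw [dd_comm]
    congr 1
    exact congrFun (congrFun hXs i) j
  rw [transpose_mul, transpose_mul, transpose_transpose, hZs, Matrix.mul_assoc]

/-- **StmtIDp** -/
theorem stmtIDp : StmtIDp := by
  intro n φ V c C a b M κ hV hB p hp
  obtain ⟨U, m, hS⟩ := exists_spec hB.C2
  have hsp := spec_of hB hS
  have hpc : S290.PC φ a b M := ⟨hB.a_pos, hB.C2, hB.lower, hB.upper, hB.lip⟩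
  have hVC : ContDiff ℝ 2 V := hV.smooth.of_le (by norm_cast)
  have hMA : S290.MA φ V (fun z : E n => ‖z‖ ^ 2 / 2) κ := by
    intro z
    rw [S290.gr_eq_gradient]
    exact hB.ma z
  obtain ⟨BU, hBU⟩ := hV.bdd 2 le_rfl
  have hBU' : ∀ y i j, |S290.hess V y i j| ≤ BU := fun y i j =>
    S290.hess_abs_of_bdd hVC hBU y i j
  have hBV : ∀ y i j, |S290.hess (fun z : E n => ‖z‖ ^ 2 / 2) y i j| ≤ 1 := by
    intro y i j
    rw [S290.hess_Q, Matrix.one_apply]
    split_ifs <;> simp
  have hcv : ∀ y v, 0 ≤ S290.qf (S290.hess V y) v := fun y v =>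
    (mul_nonneg hV.c_pos.le (sq_nonneg _)).trans (hV.lower y v)
  have hmbl := mbl_hess hB hS
  have hY : ∀ i j, S290.BL fun z => (aeval (hess φ z) p : Matrix (Fin n) (Fin n) ℝ) i j := by
    intro i j
    have h1 := hmbl.aeval p i j
    obtain ⟨K, hK⟩ := h1.lipschitz
    obtain ⟨B, hB⟩ := h1.1
    exact ⟨K, B, hK, hB⟩
  have hYp : ∀ z, (aeval (hess φ z) p : Matrix (Fin n) (Fin n) ℝ).PosSemidef := by
    intro z
    rw [hsp.aeval_eq p z]
    unfold fm
    have h1 : (diagonal (fun i => p.eval (m z i)) : Matrix (Fin n) (Fin n) ℝ).PosSemidef := by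
      refine PosSemidef.diagonal fun i => ?_
      exact hp _ (eig_mem hB hS z i)
    have h2 := h1.mul_mul_conjTranspose_same (U z)
    rwa [conjTranspose_eq_transpose_of_trivial] at h2
  have hae : ∀ᵐ z : E n, ∀ i j, DifferentiableAt ℝ (fun y => hess φ y i j) z := by
    rw [ae_all_iff]
    intro i
    rw [ae_all_iff]
    intro j
    obtain ⟨K, hK⟩ := (hmbl i j).lipschitz
    exact hK.ae_differentiableAt
  have hDY : ∀ᵐ z : E n, ∀ d i j,
      S290.pd d (fun z => (aeval (hess φ z) p : Matrix (Fin n) (Fin n) ℝ) i j) z =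
      Dp p (hess φ z) (D3 φ d z) i j := by
    filter_upwards [hae] with z hz d i j
    obtain ⟨L', hL', hv⟩ := hasFD_aeval (fun i j => (hz i j).hasFDerivAt) p i j
    show fderiv ℝ _ z (ei d) = _
    rw [hL'.fderiv, hv]
    rfl
  have hDYs : ∀ (z : E n) d i j, Dp p (hess φ z) (D3 φ d z) i j =
      Dp p (hess φ z) (D3 φ d z) j i := by
    intro z d i j
    have hs : (D3 φ d z)ᵀ = D3 φ d z := by
      ext i j
      exact D3_symm2 hB.C2 z d j i
    exact congrFun (congrFun (Dp_symm (hsp.orth z) (hsp.eq z) hs p).symm i) j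
  obtain ⟨-, -, h3⟩ := S290.s_idY (Y := fun z => (aeval (hess φ z) p : Matrix (Fin n) (Fin n) ℝ))
    (DY := fun d z => Dp p (hess φ z) (D3 φ d z)) hpc hVC S290.contDiff_Q hMA hBU' hBV
    S290.int_exp_Q hcv hY hYp hDY hDYs
  unfold Vale.Agent.P227.M.Ex
  refine div_le_div_of_nonneg_right ?_ (integral_nonneg fun z => (Real.exp_pos _).le)
  have e1 : ∫ z : E n, Real.exp (-(‖z‖ ^ 2 / 2)) *
      ((aeval (hess φ z) p : Matrix (Fin n) (Fin n) ℝ) *
        S290.hess (fun z : E n => ‖z‖ ^ 2 / 2) z).trace =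
      ∫ z : E n, (aeval (hess φ z) p : Matrix (Fin n) (Fin n) ℝ).trace * Real.exp (-Q z) := by
    refine integral_congr_ae (Eventually.of_forall fun z => ?_)
    simp only
    rw [S290.hess_Q, mul_one, mul_comm]
    rfl
  have e2 : ∫ z : E n, Real.exp (-(‖z‖ ^ 2 / 2)) *
      S290.LqY (fun z => (aeval (hess φ z) p : Matrix (Fin n) (Fin n) ℝ))
        (fun d z => Dp p (hess φ z) (D3 φ d z)) φ z =
      ∫ z : E n, (∑ i, ∑ j, (aeval (hess φ z) p : Matrix (Fin n) (Fin n) ℝ) i j *
          ((hess φ z)⁻¹ * D3 φ i z * (hess φ z)⁻¹ * D3 φ j z).trace +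
        ∑ a, ∑ b, (hess φ z)⁻¹ a b * (D3 φ a z * Dp p (hess φ z) (D3 φ b z)).trace) *
        Real.exp (-Q z) := by
    refine integral_congr_ae (Eventually.of_forall fun z => ?_)
    simp only
    rw [mul_comm]
    rfl
  rw [← e1, ← e2]
  exact h3

/-- **the energy inequality**, unconditional -/
theorem stmtEN : StmtEN := en_of stmtIDp

theorem stmtEN1 : StmtEN1 := en1_of stmtIDp

end Vale.Agent.P254.S130
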